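import Crest.Agent.S0112Aux.Vac

/-! # S0112 / WP-E : ergodic averaging (Alaoglu–Birkhoff minimal-norm argument) -/

set_option autoImplicit false

namespace Crest.Agent.S0112Aux

open Crest.OpAlg Filter MeasureTheory
open scoped Topology

variable {H : Type*} [NormedAddCommGroup H] [InnerProductSpace ℂ H] [CompleteSpace H]

/-- smul closure of a von Neumann algebra -/
theorem vn_smul_mem (M : VonNeumannAlgebra H) (c : ℂ) {a : H →L[ℂ] H} (ha : a ∈ M) :
    c • a ∈ M :=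
  M.toStarSubalgebra.smul_mem ha c

/-- A bounded sequence of operators converging on a dense set converges everywhere. -/
theorem exists_lim_of_dense (y : ℕ → H →L[ℂ] H) (B : ℝ) (hB : ∀ n, ‖y n‖ ≤ B)
    (s : Set H) (hs : Dense s) (hconv : ∀ x ∈ s, ∃ l, Tendsto (fun n => y n x) atTop (𝓝 l))
    (x : H) : ∃ l, Tendsto (fun n => y n x) atTop (𝓝 l) := by
  apply cauchySeq_tendsto_of_complete
  have hB0 : 0 ≤ B := (norm_nonneg _).trans (hB 0)
  rw [Metric.cauchySeq_iff']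
  intro ε hε
  obtain ⟨z, hz, hzs⟩ := Metric.dense_iff.1 hs x (ε / (3 * (B + 1))) (by positivity)
  obtain ⟨l, hl⟩ := hconv z hzs
  have hc : CauchySeq (fun n => y n z) := hl.cauchySeq
  rw [Metric.cauchySeq_iff'] at hc
  obtain ⟨N, hN⟩ := hc (ε / 3) (by positivity)
  refine ⟨N, fun n hn => ?_⟩
  have h1 : ∀ m, ‖y m x - y m z‖ ≤ ε / 3 := by
    intro m
    rw [← map_sub]
    calc ‖y m (x - z)‖ ≤ ‖y m‖ * ‖x - z‖ := (y m).le_opNorm _
      _ ≤ B * (ε / (3 * (B + 1))) := by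
        have : ‖x - z‖ ≤ ε / (3 * (B + 1)) := by
          rw [← dist_eq_norm, dist_comm]; exact (Metric.mem_ball.1 hz).le
        exact mul_le_mul (hB m) this (norm_nonneg _) hB0
      _ ≤ ε / 3 := by
        rw [div_mul_eq_div_div, mul_div_assoc', div_le_iff₀ (by positivity)]
        nlinarith
  have h2 : dist (y n z) (y N z) < ε / 3 := hN n hn
  rw [dist_eq_norm] at h2 ⊢
  have h3 : y n x - y N x = (y n x - y n z) + (y n z - y N z) - (y N x - y N z) := by abel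
  rw [h3]
  calc _ ≤ ‖(y n x - y n z) + (y n z - y N z)‖ + ‖y N x - y N z‖ := norm_sub_le _ _
    _ ≤ ‖y n x - y n z‖ + ‖y n z - y N z‖ + ‖y N x - y N z‖ := by gcongr; exact norm_add_le _ _
    _ < ε / 3 + ε / 3 + ε / 3 := by
        have := h1 n; have := h1 N; linarith
    _ = ε := by ring

/-- A flow-invariant vector which is a limit of vectors `y ξ`, `y ∈ M`, `‖y‖ ≤ B`, is a multiple of `ξ`.
Take a sequence `y_n`; on `b ξ` (`b ∈ M'`) `y_n b ξ = b y_n ξ → b ζ`; by `dense_commutant_vac` and the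
uniform bound `y_n` converges pointwise everywhere; `continuousLinearMapOfTendsto` gives `y`;
`y` commutes with `M'` so `y ∈ M`; `U_t y U_{-t} = y` (check on `b ξ`, using `commutant_flow_mem`,
`wave_vac`); ergodicity gives `y = c • 1`, so `ζ = y ξ = c ξ`. -/
theorem invariant_limit_eq_smul_vac (S : ModularDatum H) (herg : S.Ergodic) (B : ℝ) (ζ : H)
    (hζ : ζ ∈ closure {η : H | ∃ y : H →L[ℂ] H, y ∈ S.M ∧ ‖y‖ ≤ B ∧ η = y S.vac})
    (hinv : ∀ t : ℝ, S.D.wave t ζ = ζ) : ∃ c : ℂ, ζ = c • S.vac := by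
  obtain ⟨η, hη, hηlim⟩ := mem_closure_iff_seq_limit.1 hζ
  choose y hyM hyB hyη using hη
  have hylim : Tendsto (fun n => y n S.vac) atTop (𝓝 ζ) := by
    have : (fun n => y n S.vac) = η := by funext n; exact (hyη n).symm
    rw [this]; exact hηlim
  -- commutation
  have hcomm : ∀ b ∈ S.M.commutant, ∀ n, ∀ x, y n (b x) = b (y n x) := by
    intro b hb n x
    have := (VonNeumannAlgebra.mem_commutant_iff.1 hb) (y n) (hyM n)
    exact congrArg (fun T : H →L[ℂ] H => T x) this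
  have hconv0 : ∀ x ∈ {ζ : H | ∃ b : H →L[ℂ] H, b ∈ S.M.commutant ∧ ζ = b S.vac},
      ∃ l, Tendsto (fun n => y n x) atTop (𝓝 l) := by
    rintro x ⟨b, hb, rfl⟩
    refine ⟨b ζ, ?_⟩
    have : (fun n => y n (b S.vac)) = fun n => b (y n S.vac) := by
      funext n; exact hcomm b hb n _
    rw [this]
    exact (b.continuous.tendsto ζ).comp hylim
  have hconv := exists_lim_of_dense y B hyB _ (dense_commutant_vac S) hconv0
  choose f hf using hconv
  have hpi : Tendsto (fun n x => y n x) atTop (𝓝 f) := tendsto_pi_nhds.2 hf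
  let Y : H →L[ℂ] H := continuousLinearMapOfTendsto y hpi
  have hY : ∀ x, Y x = f x := fun x => rfl
  have hYlim : ∀ x, Tendsto (fun n => y n x) atTop (𝓝 (Y x)) := hf
  have hYvac : Y S.vac = ζ := tendsto_nhds_unique (hYlim _) hylim
  have hYcomm : ∀ b ∈ S.M.commutant, ∀ x, Y (b x) = b (Y x) := by
    intro b hb x
    have h1 := hYlim (b x)
    have h2 : Tendsto (fun n => y n (b x)) atTop (𝓝 (b (Y x))) := by
      have : (fun n => y n (b x)) = fun n => b (y n x) := by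
        funext n; exact hcomm b hb n _
      rw [this]
      exact (b.continuous.tendsto _).comp (hYlim x)
    exact tendsto_nhds_unique h1 h2
  have hYM : Y ∈ S.M := by
    rw [← VonNeumannAlgebra.commutant_commutant S.M, VonNeumannAlgebra.mem_commutant_iff]
    intro b hb
    ext x
    exact (hYcomm b hb x).symm
  have hYflow : ∀ t : ℝ, S.flow t Y = Y := by
    intro t
    have hcont1 : Continuous (fun x => S.flow t Y x) := (S.flow t Y).continuous
    have hEq := Continuous.ext_on (dense_commutant_vac S) hcont1 Y.continuous (by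
      rintro x ⟨b, hb, rfl⟩
      have hb' := commutant_flow_mem S (-t) b hb
      rw [neg_neg] at hb'
      show S.D.wave t (Y (S.D.wave (-t) (b S.vac))) = Y (b S.vac)
      have e1 : S.D.wave (-t) (b S.vac) = (S.D.wave (-t) * b * S.D.wave t) S.vac := by
        show _ = S.D.wave (-t) (b (S.D.wave t S.vac))
        rw [wave_vac]
      rw [e1, hYcomm _ hb', hYvac, hYcomm b hb, hYvac]
      show S.D.wave t (S.D.wave (-t) (b (S.D.wave t ζ))) = b ζ
      rw [hinv, wave_wave_neg])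
    ext x
    exact congrFun hEq x
  obtain ⟨c, hc⟩ := herg Y hYM hYflow
  refine ⟨c, ?_⟩
  rw [← hYvac, hc]
  simp

/-! ### minimal norm elements -/

theorem exists_min_norm (K : Set H) (hne : K.Nonempty) (hcl : IsClosed K) (hconv : Convex ℝ K) :
    ∃ v ∈ K, ∀ w ∈ K, ‖v‖ ≤ ‖w‖ := by
  let _ : InnerProductSpace ℝ H := InnerProductSpace.rclikeToReal ℂ H
  obtain ⟨v, hv, h⟩ := exists_norm_eq_iInf_of_complete_convex hne hcl.isComplete hconv (0 : H)
  refine ⟨v, hv, fun w hw => ?_⟩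
  have h1 : (⨅ w : K, ‖(0 : H) - w‖) ≤ ‖(0 : H) - w‖ :=
    ciInf_le ⟨0, Set.forall_mem_range.2 fun _ => norm_nonneg _⟩ (⟨w, hw⟩ : K)
  rw [← h] at h1
  simpa using h1

omit [CompleteSpace H] in
theorem min_norm_unique (K : Set H) (hconv : Convex ℝ K) {a b : H} (ha : a ∈ K) (hb : b ∈ K)
    (hmin : ∀ w ∈ K, ‖a‖ ≤ ‖w‖) (hab : ‖b‖ = ‖a‖) : b = a := by
  have hm : (1 / 2 : ℝ) • a + (1 / 2 : ℝ) • b ∈ K :=
    hconv ha hb (by norm_num) (by norm_num) (by norm_num)
  have h1 := hmin _ hm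
  have h2 : (1 / 2 : ℝ) • a + (1 / 2 : ℝ) • b = (1 / 2 : ℝ) • (a + b) := by rw [smul_add]
  rw [h2, norm_smul] at h1
  have h3 : 2 * ‖a‖ ≤ ‖a + b‖ := by
    have : ‖(1 / 2 : ℝ)‖ = 1 / 2 := by norm_num
    rw [this] at h1; linarith
  have h4 := parallelogram_law_with_norm ℂ a b
  rw [hab] at h4
  have h5 : ‖a - b‖ * ‖a - b‖ ≤ 0 := by nlinarith [norm_nonneg a, norm_nonneg (a + b)]
  have h6 : ‖a - b‖ = 0 := by nlinarith [norm_nonneg (a - b)]
  exact (sub_eq_zero.1 (norm_eq_zero.1 h6)).symm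

/-! ### averaging operators -/

/-- the averaging operator `∑ w_i U_{r_i}` -/
noncomputable def avgOp (S : ModularDatum H) {ι : Type*} [Fintype ι] (w r : ι → ℝ) : H →L[ℂ] H :=
  ∑ i, (w i : ℂ) • S.D.wave (r i)

theorem avgOp_apply (S : ModularDatum H) {ι : Type*} [Fintype ι] (w r : ι → ℝ) (x : H) :
    avgOp S w r x = ∑ i, (w i : ℂ) • S.D.wave (r i) x := by
  simp [avgOp]

theorem norm_avgOp_apply_le (S : ModularDatum H) {ι : Type*} [Fintype ι] (w r : ι → ℝ)
    (hw : ∀ i, 0 ≤ w i) (hw1 : ∑ i, w i = 1) (x : H) : ‖avgOp S w r x‖ ≤ ‖x‖ := by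
  rw [avgOp_apply]
  calc ‖∑ i, (w i : ℂ) • S.D.wave (r i) x‖ ≤ ∑ i, ‖(w i : ℂ) • S.D.wave (r i) x‖ :=
        norm_sum_le _ _
    _ = ∑ i, w i * ‖x‖ := by
        refine Finset.sum_congr rfl fun i _ => ?_
        rw [norm_smul, norm_wave_apply, Complex.norm_real, Real.norm_of_nonneg (hw i)]
    _ = ‖x‖ := by rw [← Finset.sum_mul, hw1, one_mul]

theorem avgOp_vac (S : ModularDatum H) {ι : Type*} [Fintype ι] (w r : ι → ℝ)
    (hw1 : ∑ i, w i = 1) : avgOp S w r S.vac = S.vac := by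
  rw [avgOp_apply]
  simp only [wave_vac]
  rw [← Finset.sum_smul, ← Complex.ofReal_sum, hw1]
  simp

theorem inner_vac_wave (S : ModularDatum H) (t : ℝ) (x : H) :
    inner ℂ S.vac (S.D.wave t x) = inner ℂ S.vac x := by
  have := inner_wave_left S.D (-t) S.vac x
  rw [neg_neg, wave_vac] at this
  exact this.symm

theorem inner_vac_avgOp (S : ModularDatum H) {ι : Type*} [Fintype ι] (w r : ι → ℝ)
    (hw1 : ∑ i, w i = 1) (x : H) : inner ℂ S.vac (avgOp S w r x) = inner ℂ S.vac x := by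
  rw [avgOp_apply, inner_sum]
  simp only [inner_smul_right, inner_vac_wave]
  rw [← Finset.sum_mul, ← Complex.ofReal_sum, hw1]
  simp

/-- the flow-average of an element of `M` -/
theorem avg_flow_mem (S : ModularDatum H) {ι : Type*} [Fintype ι] (w r : ι → ℝ)
    (x : H →L[ℂ] H) (hx : x ∈ S.M) :
    (∑ i, (w i : ℂ) • (S.D.wave (r i) * x * S.D.wave (-(r i)))) ∈ S.M :=
  sum_mem fun _ _ => vn_smul_mem _ _ (S.flow_mem _ _ hx)

theorem avg_flow_vac (S : ModularDatum H) {ι : Type*} [Fintype ι] (w r : ι → ℝ)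
    (x : H →L[ℂ] H) :
    (∑ i, (w i : ℂ) • (S.D.wave (r i) * x * S.D.wave (-(r i)))) S.vac
      = avgOp S w r (x S.vac) := by
  rw [avgOp_apply, sum_apply]
  refine Finset.sum_congr rfl fun i _ => ?_
  rw [smul_apply, flow_apply_vac]

/-- version of `exists_average` with an arbitrary finite index type -/
theorem exists_average_aux (S : ModularDatum H) (herg : S.Ergodic) (x : H →L[ℂ] H) (hx : x ∈ S.M)
    (ε : ℝ) (hε : 0 < ε) :
    ∃ (ι : Type) (_ : Fintype ι) (w r : ι → ℝ), (∀ i, 0 ≤ w i) ∧ ∑ i, w i = 1 ∧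
      ‖avgOp S w r (x S.vac) - (inner ℂ S.vac (x S.vac)) • S.vac‖ < ε := by
  set O : Set H := Set.range fun t : ℝ => S.D.wave t (x S.vac) with hO
  set K : Set H := closure (convexHull ℝ O) with hK
  have hKconv : Convex ℝ K := (convex_convexHull ℝ O).closure
  have hKne : K.Nonempty :=
    ⟨S.D.wave 0 (x S.vac), subset_closure (subset_convexHull ℝ O ⟨0, rfl⟩)⟩
  obtain ⟨ζ₀, hζK, hmin⟩ := exists_min_norm K hKne isClosed_closure hKconv
  -- invariance of K
  have hmaps : ∀ t : ℝ, Set.MapsTo (S.D.wave t) K K := by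
    intro t
    have h1 : Set.MapsTo (S.D.wave t) (convexHull ℝ O) (convexHull ℝ O) := by
      intro z hz
      have himg : (S.D.wave t) z ∈ ((S.D.wave t).restrictScalars ℝ : H →ₗ[ℝ] H) '' convexHull ℝ O :=
        ⟨z, hz, rfl⟩
      rw [LinearMap.image_convexHull] at himg
      refine convexHull_mono ?_ himg
      rintro _ ⟨_, ⟨u, rfl⟩, rfl⟩
      exact ⟨t + u, wave_add_apply S.D t u (x S.vac)⟩
    exact h1.closure (S.D.wave t).continuous
  have hinv : ∀ t : ℝ, S.D.wave t ζ₀ = ζ₀ := fun t =>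
    min_norm_unique K hKconv hζK (hmaps t hζK) hmin (norm_wave_apply _ _ _)
  -- K is inside the closure of bounded elements applied to the vacuum
  have hsub : convexHull ℝ O ⊆ {η : H | ∃ y : H →L[ℂ] H, y ∈ S.M ∧ ‖y‖ ≤ ‖x‖ ∧ η = y S.vac} := by
    refine convexHull_min ?_ ?_
    · rintro _ ⟨t, rfl⟩
      refine ⟨S.D.wave t * x * S.D.wave (-t), S.flow_mem t x hx, ?_, (flow_apply_vac S t x).symm⟩
      calc ‖S.D.wave t * x * S.D.wave (-t)‖ ≤ ‖S.D.wave t * x‖ * ‖S.D.wave (-t)‖ := norm_mul_le _ _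
        _ ≤ (‖S.D.wave t‖ * ‖x‖) * ‖S.D.wave (-t)‖ := by gcongr; exact norm_mul_le _ _
        _ ≤ (1 * ‖x‖) * 1 := by
            gcongr
            · exact norm_wave_le _ _
            · exact norm_wave_le _ _
        _ = ‖x‖ := by ring
    · rintro _ ⟨y₁, hy₁, hn₁, rfl⟩ _ ⟨y₂, hy₂, hn₂, rfl⟩ a b ha hb hab
      refine ⟨(a : ℂ) • y₁ + (b : ℂ) • y₂,
        add_mem (vn_smul_mem _ _ hy₁) (vn_smul_mem _ _ hy₂), ?_, ?_⟩
      · calc ‖(a : ℂ) • y₁ + (b : ℂ) • y₂‖ ≤ ‖(a : ℂ) • y₁‖ + ‖(b : ℂ) • y₂‖ := norm_add_le _ _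
          _ = a * ‖y₁‖ + b * ‖y₂‖ := by
              rw [norm_smul, norm_smul, Complex.norm_real, Complex.norm_real,
                Real.norm_of_nonneg ha, Real.norm_of_nonneg hb]
          _ ≤ a * ‖x‖ + b * ‖x‖ := by gcongr
          _ = ‖x‖ := by rw [← add_mul, hab, one_mul]
      · simp [Complex.coe_smul]
  obtain ⟨c, hc⟩ := invariant_limit_eq_smul_vac S herg ‖x‖ ζ₀ (closure_mono hsub hζK) hinv
  -- the value of c
  have hinner : K ⊆ {η : H | inner ℂ S.vac η = inner ℂ S.vac (x S.vac)} := by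
    refine closure_minimal (convexHull_min ?_ ?_) ?_
    · rintro _ ⟨t, rfl⟩
      exact inner_vac_wave S t _
    · rintro y₁ hy₁ y₂ hy₂ a b _ _ hab
      simp only [Set.mem_ofPred_eq] at hy₁ hy₂ ⊢
      rw [inner_add_right, ← Complex.coe_smul a, ← Complex.coe_smul b, inner_smul_right,
        inner_smul_right, hy₁, hy₂, ← add_mul, ← Complex.ofReal_add, hab]
      simp
    · exact isClosed_eq (continuous_const.inner continuous_id) continuous_const
  have hcval : c = inner ℂ S.vac (x S.vac) := by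
    have h1 : inner ℂ S.vac ζ₀ = inner ℂ S.vac (x S.vac) := hinner hζK
    rw [hc, inner_smul_right, inner_self_eq_norm_sq_to_K, S.norm_vac] at h1
    simpa using h1
  -- approximate
  obtain ⟨η, hηmem, hηdist⟩ := Metric.mem_closure_iff.1 hζK ε hε
  obtain ⟨ι, hι, w, z, hw0, hw1, hz, hsum⟩ := mem_convexHull_iff_exists_fintype.1 hηmem
  choose r hr using hz
  refine ⟨ι, hι, w, r, hw0, hw1, ?_⟩
  have h1 : avgOp S w r (x S.vac) = η := by
    rw [avgOp_apply, ← hsum]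
    refine Finset.sum_congr rfl fun i _ => ?_
    rw [← hr i, Complex.coe_smul]
  rw [h1, ← hcval, ← hc, ← dist_eq_norm, dist_comm]
  exact hηdist

/-- reindexing an averaging operator along an equivalence -/
theorem avgOp_reindex (S : ModularDatum H) {ι κ : Type*} [Fintype ι] [Fintype κ] (e : κ ≃ ι)
    (w r : ι → ℝ) : avgOp S (fun k => w (e k)) (fun k => r (e k)) = avgOp S w r := by
  unfold avgOp
  exact Equiv.sum_comp e (fun i => (w i : ℂ) • S.D.wave (r i))

/-- composition of averaging operators -/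
theorem avgOp_comp (S : ModularDatum H) {ι κ : Type*} [Fintype ι] [Fintype κ]
    (w r : ι → ℝ) (w' r' : κ → ℝ) (x : H) :
    avgOp S (fun p : ι × κ => w p.1 * w' p.2) (fun p : ι × κ => r p.1 + r' p.2) x
      = avgOp S w r (avgOp S w' r' x) := by
  rw [avgOp_apply, avgOp_apply, Fintype.sum_prod_type]
  refine Finset.sum_congr rfl fun i _ => ?_
  rw [avgOp_apply, map_sum, Finset.smul_sum]
  refine Finset.sum_congr rfl fun j _ => ?_
  rw [map_smul, smul_smul, wave_add_apply]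
  push_cast
  rfl

/-- Let `K` be the closed convex hull of the orbit `{U_t x ξ}`.  Its element `ζ₀` of minimal norm
(`exists_norm_eq_iInf_of_complete_convex` with `u = 0`) is unique, and `U_t K ⊆ K` isometrically, so
`U_t ζ₀ = ζ₀`.  Convex combinations of the orbit are `y ξ` with `y = ∑ w_i σ_{r_i}(x) ∈ M`,
`‖y‖ ≤ ‖x‖`; by the previous lemma `ζ₀ = c ξ`, and `c = ⟪ξ, ζ₀⟫ = ⟪ξ, x ξ⟫` since `⟪ξ, ·⟫` is constant
on the orbit (`inner_wave_left`, `wave_vac`). -/
theorem exists_average (S : ModularDatum H) (herg : S.Ergodic) (x : H →L[ℂ] H) (hx : x ∈ S.M)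
    (ε : ℝ) (hε : 0 < ε) :
    ∃ (n : ℕ) (w r : Fin n → ℝ), (∀ i, 0 ≤ w i) ∧ ∑ i, w i = 1 ∧
      ‖∑ i, (w i : ℂ) • S.D.wave (r i) (x S.vac) - (inner ℂ S.vac (x S.vac)) • S.vac‖ < ε := by
  obtain ⟨ι, hι, w, r, hw0, hw1, h⟩ := exists_average_aux S herg x hx ε hε
  let e : Fin (Fintype.card ι) ≃ ι := (Fintype.equivFin ι).symm
  refine ⟨Fintype.card ι, fun k => w (e k), fun k => r (e k), fun k => hw0 _, ?_, ?_⟩
  · rw [Equiv.sum_comp e w, hw1]
  · rw [← avgOp_apply, avgOp_reindex S e w r]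
    exact h

/-- Two elements at once: average `x₁` with `(w¹,r¹)`, then apply `exists_average` to
`x₂' = ∑ w¹_i σ_{r¹_i}(x₂) ∈ M`, getting `(w²,r²)`; use the product family
`w (i,j) = w²_i w¹_j`, `r (i,j) = r²_i + r¹_j` (reindexed by `Fin (n₂ * n₁)` via `finProdFinEquiv`).
Averaging operators `∑ w_i U_{r_i}` are contractions fixing `ξ`. -/
theorem exists_average₂ (S : ModularDatum H) (herg : S.Ergodic) (x₁ x₂ : H →L[ℂ] H)
    (hx₁ : x₁ ∈ S.M) (hx₂ : x₂ ∈ S.M) (ε : ℝ) (hε : 0 < ε) :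
    ∃ (n : ℕ) (w r : Fin n → ℝ), (∀ i, 0 ≤ w i) ∧ ∑ i, w i = 1 ∧
      ‖∑ i, (w i : ℂ) • S.D.wave (r i) (x₁ S.vac) - (inner ℂ S.vac (x₁ S.vac)) • S.vac‖ < ε ∧
      ‖∑ i, (w i : ℂ) • S.D.wave (r i) (x₂ S.vac) - (inner ℂ S.vac (x₂ S.vac)) • S.vac‖ < ε := by
  obtain ⟨ι, hι, w, r, hw0, hw1, h⟩ := exists_average_aux S herg x₁ hx₁ ε hε
  obtain ⟨κ, hκ, w', r', hw0', hw1', h'⟩ := exists_average_aux S herg _
    (avg_flow_mem S w r x₂ hx₂) ε hε
  rw [avg_flow_vac, inner_vac_avgOp S w r hw1] at h'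
  let W : κ × ι → ℝ := fun p => w' p.1 * w p.2
  let R : κ × ι → ℝ := fun p => r' p.1 + r p.2
  have hW0 : ∀ p, 0 ≤ W p := fun p => mul_nonneg (hw0' _) (hw0 _)
  have hW1 : ∑ p, W p = 1 := by
    rw [Fintype.sum_prod_type]
    simp only [W, ← Finset.mul_sum, hw1, mul_one, hw1']
  have H1 : ‖avgOp S W R (x₁ S.vac) - (inner ℂ S.vac (x₁ S.vac)) • S.vac‖ < ε := by
    rw [avgOp_comp S w' r' w r]
    have e1 : avgOp S w' r' (avgOp S w r (x₁ S.vac)) - (inner ℂ S.vac (x₁ S.vac)) • S.vac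
        = avgOp S w' r' (avgOp S w r (x₁ S.vac) - (inner ℂ S.vac (x₁ S.vac)) • S.vac) := by
      rw [map_sub, map_smul, avgOp_vac S w' r' hw1']
    rw [e1]
    exact (norm_avgOp_apply_le S w' r' hw0' hw1' _).trans_lt h
  have H2 : ‖avgOp S W R (x₂ S.vac) - (inner ℂ S.vac (x₂ S.vac)) • S.vac‖ < ε := by
    rw [avgOp_comp S w' r' w r]
    exact h'
  let e : Fin (Fintype.card (κ × ι)) ≃ κ × ι := (Fintype.equivFin (κ × ι)).symm
  refine ⟨Fintype.card (κ × ι), fun k => W (e k), fun k => R (e k), fun k => hW0 _, ?_, ?_, ?_⟩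
  · rw [Equiv.sum_comp e W, hW1]
  · rw [← avgOp_apply, avgOp_reindex S e W R]
    exact H1
  · rw [← avgOp_apply, avgOp_reindex S e W R]
    exact H2

end Crest.Agent.S0112Aux
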