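import Crest.Prelude.Def_ModularData

/-! # S0112 / WP-H : from the ultra-mean to one good time -/

set_option autoImplicit false

namespace Crest.Agent.S0112Aux

open Crest.OpAlg Filter MeasureTheory
open scoped Topology

/-- the window mean as an interval integral -/
theorem windowMean_eq (F : ℝ → ℝ) (k : ℕ) :
    windowMean F k = (2 * (k : ℝ))⁻¹ * ∫ t in (-(k : ℝ))..(k : ℝ), F t := by
  have hk : (-(k : ℝ)) ≤ (k : ℝ) := by
    have : (0 : ℝ) ≤ (k : ℝ) := Nat.cast_nonneg k
    linarith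
  unfold windowMean
  rw [setAverage_eq, integral_Icc_eq_integral_Ioc, intervalIntegral.integral_of_le hk,
    Real.volume_real_Icc_of_le hk, smul_eq_mul]
  congr 2
  ring

theorem windowMean_mem (F : ℝ → ℝ) (hFc : Continuous F) (B : ℝ) (hF : ∀ t, 0 ≤ F t ∧ F t ≤ B)
    (k : ℕ) : windowMean F k ∈ Set.Icc (0 : ℝ) B := by
  have hk0 : (0 : ℝ) ≤ (k : ℝ) := Nat.cast_nonneg k
  have hk : (-(k : ℝ)) ≤ (k : ℝ) := by linarith
  have hB : 0 ≤ B := le_trans (hF 0).1 (hF 0).2
  rw [windowMean_eq]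
  have h1 : 0 ≤ ∫ t in (-(k : ℝ))..(k : ℝ), F t :=
    intervalIntegral.integral_nonneg hk (fun t _ => (hF t).1)
  have h2 : ∫ t in (-(k : ℝ))..(k : ℝ), F t ≤ ∫ _t in (-(k : ℝ))..(k : ℝ), B :=
    intervalIntegral.integral_mono_on hk (hFc.intervalIntegrable _ _)
      (continuous_const.intervalIntegrable _ _) (fun t _ => (hF t).2)
  rw [intervalIntegral.integral_const, smul_eq_mul] at h2
  constructor
  · positivity
  · rcases eq_or_lt_of_le hk0 with h0 | h0
    · rw [← h0]; simpa using hB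
    · rw [inv_mul_le_iff₀ (by positivity)]
      nlinarith

theorem shift_integral_ge (F : ℝ → ℝ) (hFc : Continuous F) (B : ℝ)
    (hF : ∀ t, 0 ≤ F t ∧ F t ≤ B) (a b r : ℝ) :
    (∫ t in a..b, F t) - 2 * |r| * B ≤ ∫ t in a..b, F (t + r) := by
  rw [intervalIntegral.integral_comp_add_right]
  have hint : ∀ x y : ℝ, IntervalIntegrable F volume x y := fun x y => hFc.intervalIntegrable x y
  have h1 : (∫ t in (a + r)..(b + r), F t) - ∫ t in a..b, F t
      = (∫ t in b..(b + r), F t) - ∫ t in a..(a + r), F t := by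
    rw [intervalIntegral.integral_interval_sub_interval_comm (hint _ _) (hint _ _) (hint _ _),
      intervalIntegral.integral_symm a (a + r), intervalIntegral.integral_symm b (b + r)]
    ring
  have hb : ∀ x : ℝ, ‖∫ t in x..(x + r), F t‖ ≤ B * |x + r - x| := fun x =>
    intervalIntegral.norm_integral_le_of_norm_le_const (fun t _ => by
      rw [Real.norm_eq_abs, abs_of_nonneg (hF t).1]; exact (hF t).2)
  have hb1 := hb b
  have hb2 := hb a
  simp only [add_sub_cancel_left, Real.norm_eq_abs] at hb1 hb2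
  have := abs_le.mp hb1
  have := abs_le.mp hb2
  nlinarith

/-- `windowMean F` takes values in `[0,B]`, so it converges along the ultrafilter `ω` to some `L`
(`IsCompact.ultrafilter_le_nhds` on `Set.Icc 0 B`), `ultraMean ω F = L` (`Tendsto.limUnder_eq`), hence
`ω`-eventually `windowMean F k > c - ε/2`; also `ω`-eventually `k ≥ k₀` (`hω`).
For such a `k`: `|windowMean (F (· + r)) k - windowMean F k| ≤ |r| B / k`, so for `k₀` large the window
mean of `F₀ t = ∑ w_i F (t + r_i)` is `≥ c - ε`; conclude with `exists_setAverage_le`. -/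
theorem exists_time (ω : Ultrafilter ℕ) (hω : (ω : Filter ℕ) ≤ Filter.atTop) (F : ℝ → ℝ)
    (hFc : Continuous F) (B : ℝ) (hF : ∀ t, 0 ≤ F t ∧ F t ≤ B) (c : ℝ) (hc : c ≤ ultraMean ω F)
    (n : ℕ) (w r : Fin n → ℝ) (hw : ∀ i, 0 ≤ w i) (hw1 : ∑ i, w i = 1) (ε : ℝ) (hε : 0 < ε) :
    ∃ t : ℝ, c - ε ≤ ∑ i, w i * F (t + r i) := by
  have hB : 0 ≤ B := le_trans (hF 0).1 (hF 0).2
  -- convergence along the ultrafilter
  obtain ⟨L, -, hL⟩ : ∃ L ∈ Set.Icc (0 : ℝ) B, ((ω.map (windowMean F) : Ultrafilter ℝ) : Filter ℝ) ≤ 𝓝 L := by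
    apply (isCompact_Icc : IsCompact (Set.Icc (0 : ℝ) B)).ultrafilter_le_nhds
    rw [Filter.le_principal_iff]
    exact Filter.mem_map.mpr (Filter.univ_mem' (fun k => windowMean_mem F hFc B hF k))
  have hT : Tendsto (windowMean F) (ω : Filter ℕ) (𝓝 L) := hL
  have hLe : ultraMean ω F = L := hT.limUnder_eq
  have hcL : c - ε / 2 < L := by rw [← hLe]; linarith
  set R : ℝ := ∑ i, |r i| with hR
  have hR0 : 0 ≤ R := Finset.sum_nonneg (fun i _ => abs_nonneg _)
  obtain ⟨k₀, hk₀⟩ := exists_nat_gt (2 * R * B / ε)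
  have hev1 : ∀ᶠ k in (ω : Filter ℕ), c - ε / 2 < windowMean F k := hT.eventually (lt_mem_nhds hcL)
  have hev2 : ∀ᶠ k in (ω : Filter ℕ), k₀ ≤ k := hω (Filter.eventually_ge_atTop k₀)
  obtain ⟨k, hk1, hk2⟩ := (hev1.and hev2).exists
  have hkR : 2 * R * B / ε < (k : ℝ) := lt_of_lt_of_le hk₀ (by exact_mod_cast hk2)
  have hkpos : (0 : ℝ) < (k : ℝ) := lt_of_le_of_lt (by positivity) hkR
  have hkR' : 2 * R * B < (k : ℝ) * ε := by rwa [div_lt_iff₀ hε] at hkR
  have hk : (-(k : ℝ)) ≤ (k : ℝ) := by linarith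
  rw [windowMean_eq, lt_inv_mul_iff₀ (by positivity)] at hk1
  by_contra hcon
  push Not at hcon
  have hcont : Continuous fun t : ℝ => ∑ i, w i * F (t + r i) := by
    refine continuous_finsetSum _ (fun i _ => ?_)
    exact continuous_const.mul (hFc.comp (continuous_id.add continuous_const))
  have hup : ∫ t in (-(k : ℝ))..(k : ℝ), ∑ i, w i * F (t + r i)
      ≤ ∫ _t in (-(k : ℝ))..(k : ℝ), (c - ε) :=
    intervalIntegral.integral_mono_on hk (hcont.intervalIntegrable _ _)
      (continuous_const.intervalIntegrable _ _) (fun t _ => (hcon t).le)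
  rw [intervalIntegral.integral_const, smul_eq_mul] at hup
  have hsum : ∫ t in (-(k : ℝ))..(k : ℝ), ∑ i, w i * F (t + r i)
      = ∑ i, w i * ∫ t in (-(k : ℝ))..(k : ℝ), F (t + r i) := by
    rw [intervalIntegral.integral_finsetSum]
    · refine Finset.sum_congr rfl (fun i _ => ?_)
      rw [intervalIntegral.integral_const_mul]
    · intro i _
      exact (continuous_const.mul (hFc.comp (continuous_id.add continuous_const))).intervalIntegrable _ _
  have hlow : (∫ t in (-(k : ℝ))..(k : ℝ), F t) - 2 * R * B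
      ≤ ∑ i, w i * ∫ t in (-(k : ℝ))..(k : ℝ), F (t + r i) := by
    calc (∫ t in (-(k : ℝ))..(k : ℝ), F t) - 2 * R * B
        = ∑ i, w i * ((∫ t in (-(k : ℝ))..(k : ℝ), F t) - 2 * R * B) := by
          rw [← Finset.sum_mul, hw1, one_mul]
      _ ≤ ∑ i, w i * ∫ t in (-(k : ℝ))..(k : ℝ), F (t + r i) := by
          refine Finset.sum_le_sum (fun i _ => mul_le_mul_of_nonneg_left ?_ (hw i))
          have h1 := shift_integral_ge F hFc B hF (-(k : ℝ)) (k : ℝ) (r i)
          have h2 : |r i| ≤ R := Finset.single_le_sum (f := fun i => |r i|)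
            (fun j _ => abs_nonneg _) (Finset.mem_univ i)
          have h3 : 2 * |r i| * B ≤ 2 * R * B := by
            apply mul_le_mul_of_nonneg_right _ hB
            linarith
          linarith
  rw [hsum] at hup
  nlinarith

end Crest.Agent.S0112Aux
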