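import Mathlib

set_option autoImplicit false

namespace Crest.Agent.S0112Aux

variable {H : Type*} [NormedAddCommGroup H] [InnerProductSpace ℂ H] [CompleteSpace H]

lemma re_inner_self_star_mul (v : H →L[ℂ] H) (z : H) :
    RCLike.re (inner ℂ z ((star v * v) z)) = ‖v z‖ ^ 2 := by
  rw [ContinuousLinearMap.star_eq_adjoint, ContinuousLinearMap.mul_apply,
    ContinuousLinearMap.adjoint_inner_right, ← @norm_sq_eq_re_inner ℂ]

lemma re_inner_apply_star_mul (v : H →L[ℂ] H) (z : H) :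
    RCLike.re (inner ℂ (v z) (v ((star v * v) z))) = ‖(star v * v) z‖ ^ 2 := by
  rw [← ContinuousLinearMap.adjoint_inner_left, @norm_sq_eq_re_inner ℂ,
    ContinuousLinearMap.star_eq_adjoint, ContinuousLinearMap.mul_apply]

lemma norm_add_smul_sq (c : ℝ) (a b : H) :
    ‖a + (c : ℂ) • b‖ ^ 2 = ‖a‖ ^ 2 + 2 * c * RCLike.re (inner ℂ a b) + c ^ 2 * ‖b‖ ^ 2 := by
  rw [@norm_add_sq ℂ, inner_smul_right, norm_smul]
  simp
  ring_nf
  simp [sq_abs]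

theorem isUnit_one_add_smul_star_mul (v : H →L[ℂ] H) (c : ℝ) (hc : 0 ≤ c) :
    IsUnit (1 + (c : ℂ) • (star v * v)) := by
  have h1 : (1 : H →L[ℂ] H) ≤ 1 + (c : ℂ) • (star v * v) := by
    apply le_add_of_nonneg_right
    have : (c : ℂ) • (star v * v) = c • (star v * v) := by
      simp
    rw [this]
    exact smul_nonneg hc (star_mul_self_nonneg v)
  exact CStarAlgebra.isUnit_of_le 1 h1

theorem resolvent_truncation (M : VonNeumannAlgebra H) (v : H →L[ℂ] H) (hv : v ∈ M)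
    (lam : ℝ) (hlam : 0 < lam) :
    ∃ a : H →L[ℂ] H, a ∈ M ∧ ‖a‖ ≤ Real.sqrt lam ∧
      ∀ ξ : H, ‖v ξ‖ ^ 2 - ‖(star v * v) ξ‖ ^ 2 / lam ≤ RCLike.re (inner ℂ (a ξ) (v ξ)) := by
  set c : ℝ := lam⁻¹ with hc
  have hcpos : 0 < c := inv_pos.mpr hlam
  set x : H →L[ℂ] H := star v * v with hx
  set B : H →L[ℂ] H := 1 + (c : ℂ) • x with hB
  obtain ⟨u, hu⟩ := isUnit_one_add_smul_star_mul v c hcpos.le
  set r : H →L[ℂ] H := ((u⁻¹ : (H →L[ℂ] H)ˣ) : H →L[ℂ] H) with hr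
  have hBr : B * r = 1 := by rw [hB, hx, ← hu, hr]; simp
  have hrB : r * B = 1 := by rw [hB, hx, ← hu, hr]; simp
  have hxM : x ∈ M := mul_mem (star_mem hv) hv
  have hBM : B ∈ M := by
    apply add_mem (one_mem M)
    exact M.toStarSubalgebra.smul_mem hxM _
  have hrM : r ∈ M := by
    rw [← M.commutant_commutant, VonNeumannAlgebra.mem_commutant_iff]
    intro g hg
    rw [VonNeumannAlgebra.mem_commutant_iff] at hg
    have h1 : B * g = g * B := hg B hBM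
    calc g * r = (r * B) * g * r := by rw [hrB, one_mul]
      _ = r * (B * g) * r := by simp only [mul_assoc]
      _ = r * (g * B) * r := by rw [h1]
      _ = r * g * (B * r) := by simp only [mul_assoc]
      _ = r * g := by rw [hBr, mul_one]
  have hξ : ∀ ξ : H, ξ = r ξ + (c : ℂ) • x (r ξ) := by
    intro ξ
    have : (B * r) ξ = ξ := by rw [hBr]; rfl
    rw [hB] at this
    simpa using this.symm
  refine ⟨v * r, mul_mem hv hrM, ?_, ?_⟩
  · apply ContinuousLinearMap.opNorm_le_bound _ (Real.sqrt_nonneg _)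
    intro ξ
    set η := r ξ with hη
    have h1 : ‖ξ‖ ^ 2 = ‖η‖ ^ 2 + 2 * c * ‖v η‖ ^ 2 + c ^ 2 * ‖x η‖ ^ 2 := by
      conv_lhs => rw [hξ ξ]
      rw [norm_add_smul_sq, re_inner_self_star_mul]
    have h2 : ‖v η‖ ^ 2 ≤ lam * ‖ξ‖ ^ 2 := by
      have h3 : 2 * c * ‖v η‖ ^ 2 ≤ ‖ξ‖ ^ 2 := by
        rw [h1]; nlinarith [sq_nonneg ‖η‖, sq_nonneg (c * ‖x η‖)]
      have h4 : lam * c = 1 := by rw [hc]; field_simp
      have h5 : lam * (2 * c * ‖v η‖ ^ 2) ≤ lam * ‖ξ‖ ^ 2 :=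
        mul_le_mul_of_nonneg_left h3 hlam.le
      have h6 : lam * (2 * c * ‖v η‖ ^ 2) = 2 * ‖v η‖ ^ 2 := by
        calc lam * (2 * c * ‖v η‖ ^ 2) = (lam * c) * (2 * ‖v η‖ ^ 2) := by ring
          _ = 2 * ‖v η‖ ^ 2 := by rw [h4, one_mul]
      nlinarith [sq_nonneg ‖v η‖]
    have h7 : ‖v η‖ ^ 2 ≤ (Real.sqrt lam * ‖ξ‖) ^ 2 := by
      rw [mul_pow, Real.sq_sqrt hlam.le]; exact h2
    exact abs_le_of_sq_le_sq' h7 (by positivity) |>.2 |> fun h => by simpa using h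
  · intro ξ
    set η := r ξ with hη
    have e0 : (v * r) ξ = v η := rfl
    have e1 : v ξ = v η + (c : ℂ) • v (x η) := by
      conv_lhs => rw [hξ ξ]
      rw [map_add, map_smul]
    have e2 : x ξ = x η + (c : ℂ) • x (x η) := by
      conv_lhs => rw [hξ ξ]
      rw [map_add, map_smul]
    have f1 : RCLike.re (inner ℂ (v η) (v ξ)) = ‖v η‖ ^ 2 + c * ‖x η‖ ^ 2 := by
      rw [e1, inner_add_right, inner_smul_right, map_add, ← @norm_sq_eq_re_inner ℂ]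
      have := re_inner_apply_star_mul v η
      simp only [RCLike.re_to_complex] at this ⊢
      rw [Complex.re_ofReal_mul, this]
    have f2 : ‖v ξ‖ ^ 2 = ‖v η‖ ^ 2 + 2 * c * ‖x η‖ ^ 2 + c ^ 2 * ‖v (x η)‖ ^ 2 := by
      rw [e1, norm_add_smul_sq, re_inner_apply_star_mul]
    have f3 : ‖x ξ‖ ^ 2 = ‖x η‖ ^ 2 + 2 * c * ‖v (x η)‖ ^ 2 + c ^ 2 * ‖x (x η)‖ ^ 2 := by
      rw [e2, norm_add_smul_sq, re_inner_self_star_mul]
    rw [e0, f1, f2, f3, div_eq_mul_inv, ← hc]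
    have g1 : 0 ≤ c ^ 2 * ‖v (x η)‖ ^ 2 := by positivity
    have g2 : 0 ≤ c ^ 3 * ‖x (x η)‖ ^ 2 := by positivity
    nlinarith

/-- helper1's interface (WP-G): `v' = v (1 + κ v⋆v)⁻¹`. -/
theorem exists_truncation (M : VonNeumannAlgebra H) (v : H →L[ℂ] H) (hv : v ∈ M) (κ : ℝ)
    (hκ : 0 < κ) (ξ : H) :
    ∃ v' : H →L[ℂ] H, v' ∈ M ∧ ‖v'‖ ^ 2 ≤ 1 / (2 * κ) ∧
      ‖v ξ - v' ξ‖ ^ 2 ≤ κ / 2 * ‖(star v * v) ξ‖ ^ 2 := by
  set x : H →L[ℂ] H := star v * v with hx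
  set B : H →L[ℂ] H := 1 + (κ : ℂ) • x with hB
  obtain ⟨u, hu⟩ := isUnit_one_add_smul_star_mul v κ hκ.le
  set r : H →L[ℂ] H := ((u⁻¹ : (H →L[ℂ] H)ˣ) : H →L[ℂ] H) with hr
  have hBr : B * r = 1 := by rw [hB, hx, ← hu, hr]; simp
  have hrB : r * B = 1 := by rw [hB, hx, ← hu, hr]; simp
  have hxM : x ∈ M := mul_mem (star_mem hv) hv
  have hBM : B ∈ M := by
    apply add_mem (one_mem M)
    exact M.toStarSubalgebra.smul_mem hxM _
  have hrM : r ∈ M := by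
    rw [← M.commutant_commutant, VonNeumannAlgebra.mem_commutant_iff]
    intro g hg
    rw [VonNeumannAlgebra.mem_commutant_iff] at hg
    have h1 : B * g = g * B := hg B hBM
    calc g * r = (r * B) * g * r := by rw [hrB, one_mul]
      _ = r * (B * g) * r := by simp only [mul_assoc]
      _ = r * (g * B) * r := by rw [h1]
      _ = r * g * (B * r) := by simp only [mul_assoc]
      _ = r * g := by rw [hBr, mul_one]
  have hξ : ∀ ξ : H, ξ = r ξ + (κ : ℂ) • x (r ξ) := by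
    intro ξ
    have : (B * r) ξ = ξ := by rw [hBr]; rfl
    rw [hB] at this
    simpa using this.symm
  have hξ' : ∀ ξ : H, ξ = r ξ + (κ : ℂ) • r (x ξ) := by
    intro ξ
    have : (r * B) ξ = ξ := by rw [hrB]; rfl
    rw [hB] at this
    simpa using this.symm
  -- the basic estimate
  have hbasic : ∀ ζ : H, ‖v (r ζ)‖ ^ 2 ≤ 1 / (2 * κ) * ‖ζ‖ ^ 2 := by
    intro ζ
    set η := r ζ with hη
    have h1 : ‖ζ‖ ^ 2 = ‖η‖ ^ 2 + 2 * κ * ‖v η‖ ^ 2 + κ ^ 2 * ‖x η‖ ^ 2 := by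
      conv_lhs => rw [hξ ζ]
      rw [norm_add_smul_sq, re_inner_self_star_mul]
    have h3 : 2 * κ * ‖v η‖ ^ 2 ≤ ‖ζ‖ ^ 2 := by
      rw [h1]; nlinarith [sq_nonneg ‖η‖, sq_nonneg (κ * ‖x η‖)]
    rw [div_mul_eq_mul_div, one_mul, le_div_iff₀ (by positivity)]
    linarith
  refine ⟨v * r, mul_mem hv hrM, ?_, ?_⟩
  · have hb : ‖v * r‖ ≤ Real.sqrt (1 / (2 * κ)) := by
      apply ContinuousLinearMap.opNorm_le_bound _ (Real.sqrt_nonneg _)
      intro ζ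
      have h7 : ‖v (r ζ)‖ ^ 2 ≤ (Real.sqrt (1 / (2 * κ)) * ‖ζ‖) ^ 2 := by
        rw [mul_pow, Real.sq_sqrt (by positivity)]; exact hbasic ζ
      exact abs_le_of_sq_le_sq' h7 (by positivity) |>.2 |> fun h => by simpa using h
    calc ‖v * r‖ ^ 2 ≤ (Real.sqrt (1 / (2 * κ))) ^ 2 :=
          pow_le_pow_left₀ (norm_nonneg _) hb 2
      _ = 1 / (2 * κ) := Real.sq_sqrt (by positivity)
  · have e1 : v ξ - (v * r) ξ = (κ : ℂ) • v (r (x ξ)) := by
      have : v ξ = v (r ξ) + (κ : ℂ) • v (r (x ξ)) := by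
        conv_lhs => rw [hξ' ξ]
        rw [map_add, map_smul]
      rw [this]
      simp
    rw [e1, norm_smul, mul_pow]
    have h := hbasic (x ξ)
    have hk : ‖(κ : ℂ)‖ ^ 2 = κ ^ 2 := by simp
    rw [hk]
    calc κ ^ 2 * ‖v (r (x ξ))‖ ^ 2 ≤ κ ^ 2 * (1 / (2 * κ) * ‖x ξ‖ ^ 2) :=
          mul_le_mul_of_nonneg_left h (by positivity)
      _ = κ / 2 * ‖x ξ‖ ^ 2 := by field_simp

end Crest.Agent.S0112Aux
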