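import Crest.Agent.S0112Aux.Smooth

/-! # S0112 / WP-C2 : the band filter interface (assembly of WP-B and WP-C1) -/

set_option autoImplicit false

namespace Crest.Agent.S0112Aux

open Crest.OpAlg Filter MeasureTheory
open scoped Topology

variable {H : Type*} [NormedAddCommGroup H] [InnerProductSpace ℂ H] [CompleteSpace H]

local notation "Cb" => BoundedContinuousFunction ℝ ℂ

/-- integrability of the strong integrand -/
theorem integrable_flow_integrand (D : LineCalculus H) (κ : ℝ → ℂ) (hκ : Integrable κ)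
    (r : ℝ) (x : H →L[ℂ] H) (ζ : H) :
    Integrable fun τ : ℝ => κ τ • D.wave (r * τ) (x (D.wave (-(r * τ)) ζ)) := by
  have hc : Continuous fun τ : ℝ => D.wave (r * τ) (x (D.wave (-(r * τ)) ζ)) :=
    (continuous_flow_apply D x ζ).comp (continuous_const.mul continuous_id)
  refine hκ.smul_bdd (‖x‖ * ‖ζ‖) hc.aestronglyMeasurable (Filter.Eventually.of_forall fun τ => ?_)
  rw [norm_wave_apply]
  calc ‖x (D.wave (-(r * τ)) ζ)‖ ≤ ‖x‖ * ‖D.wave (-(r * τ)) ζ‖ := x.le_opNorm _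
    _ = ‖x‖ * ‖ζ‖ := by rw [norm_wave_apply]

/-- a strong integral of elements of `M` lies in `M` (double commutant) -/
theorem smooth_mem (S : ModularDatum H) (κ : ℝ → ℂ) (hκ : Integrable κ) (r : ℝ)
    (x : H →L[ℂ] H) (hx : x ∈ S.M) (y : H →L[ℂ] H)
    (hy : ∀ ζ : H, y ζ = ∫ τ : ℝ, κ τ • S.D.wave (r * τ) (x (S.D.wave (-(r * τ)) ζ))) :
    y ∈ S.M := by
  rw [← VonNeumannAlgebra.commutant_commutant S.M, VonNeumannAlgebra.mem_commutant_iff]
  intro g hg
  rw [VonNeumannAlgebra.mem_commutant_iff] at hg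
  ext ζ
  simp only [ContinuousLinearMap.mul_apply]
  rw [hy ζ, hy (g ζ), ← ContinuousLinearMap.integral_comp_comm g
    (integrable_flow_integrand S.D κ hκ r x ζ)]
  refine integral_congr_ae (Filter.Eventually.of_forall fun τ => ?_)
  have h1 := hg _ (S.flow_mem (r * τ) x hx)
  have h2 := congrArg (fun A : H →L[ℂ] H => A ζ) h1
  simp only [ContinuousLinearMap.mul_apply] at h2
  simp only [map_smul]
  rw [h2]

theorem exists_band_filter :
    ∃ C₀ : ℝ, 0 ≤ C₀ ∧ ∀ (S : ModularDatum H), (∀ t : ℝ, S.D.wave t S.vac = S.vac) →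
      ∀ (s δ : ℝ), 0 < δ →
      ∃ ψ : Cb, (∀ u ∈ Set.Icc (s - δ) (s + δ), ψ u = 1) ∧
        (∀ u, u ∉ Set.Icc (s - 4 * δ) (s + 4 * δ) → ψ u = 0) ∧ ‖ψ‖ ≤ C₀ ∧
        ∀ x : H →L[ℂ] H, x ∈ S.M → ∃ y : H →L[ℂ] H, y ∈ S.M ∧ ‖y‖ ≤ C₀ * ‖x‖ ∧
          y S.vac = S.D.apply ψ (x S.vac) := by
  obtain ⟨k, Ψ, hkc, hki, hFT, hΨ1, hΨ0⟩ := exists_kernel
  refine ⟨∫ τ : ℝ, ‖k τ‖, integral_nonneg fun _ => norm_nonneg _, ?_⟩
  intro S hvac s δ hδ
  -- the rescaled multiplier
  let ψ : Cb := Ψ.compContinuous ⟨fun u : ℝ => (u - s) / δ, by fun_prop⟩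
  have hψ_apply : ∀ u, ψ u = Ψ ((u - s) / δ) := fun u => rfl
  -- the modulated kernel
  let κ : ℝ → ℂ := fun τ => k τ * Complex.exp (Complex.I * ((-(s / δ) * τ : ℝ) : ℂ))
  have hκc : Continuous κ := by
    refine hkc.mul ?_
    fun_prop
  have hκnorm : ∀ τ, ‖κ τ‖ = ‖k τ‖ := by
    intro τ
    simp only [κ, norm_mul]
    rw [Complex.norm_exp]
    simp
  have hκi : Integrable κ := by
    refine (integrable_norm_iff hκc.aestronglyMeasurable).1 ?_
    simp only [hκnorm]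
    exact hki.norm
  have hκint : (∫ τ : ℝ, ‖κ τ‖) = ∫ τ : ℝ, ‖k τ‖ := by simp only [hκnorm]
  have hFTκ : ∀ u : ℝ,
      ∫ τ : ℝ, κ τ * Complex.exp (Complex.I * ((1 / δ * τ * u : ℝ) : ℂ)) = ψ u := by
    intro u
    rw [hψ_apply, ← hFT]
    refine integral_congr_ae (Filter.Eventually.of_forall fun τ => ?_)
    simp only [κ]
    rw [mul_assoc, ← Complex.exp_add, ← mul_add, ← Complex.ofReal_add]
    congr 4
    field_simp
    ring
  refine ⟨ψ, ?_, ?_, ?_, ?_⟩
  · intro u hu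
    rw [hψ_apply]
    apply hΨ1
    rw [abs_div, abs_of_pos hδ, div_le_one hδ, abs_le]
    constructor <;> linarith [hu.1, hu.2]
  · intro u hu
    rw [hψ_apply]
    apply hΨ0
    rw [abs_div, abs_of_pos hδ, le_div_iff₀ hδ]
    by_contra hcon
    rw [not_le] at hcon
    apply hu
    have := abs_lt.1 hcon
    constructor <;> linarith [this.1, this.2]
  · rw [BoundedContinuousFunction.norm_le (integral_nonneg fun _ => norm_nonneg _)]
    intro u
    rw [hψ_apply, ← hFT]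
    refine (norm_integral_le_integral_norm _).trans (le_of_eq ?_)
    refine integral_congr_ae (Filter.Eventually.of_forall fun τ => ?_)
    simp only [norm_mul]
    rw [Complex.norm_exp]
    simp
  · intro x hx
    obtain ⟨y, hy, hynorm⟩ := exists_smooth S.D κ hκc hκi (1 / δ) x
    refine ⟨y, smooth_mem S κ hκi (1 / δ) x hx y hy, by rwa [hκint] at hynorm, ?_⟩
    rw [hy S.vac, ← integral_wave_eq_apply S.D κ hκc hκi (1 / δ) ψ hFTκ (x S.vac)]
    simp only [hvac]

end Crest.Agent.S0112Aux
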