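import Crest.Agent.S0112Aux.SignsStep
import Crest.Agent.S0112Aux.SmoothC2
import Crest.Agent.S0112Aux.Ergodic
import Crest.Agent.S0112Aux.Resolvent
import Crest.Agent.S0112Aux.Mean

/-! # S0112 : the one-step construction (helper1) -/

set_option autoImplicit false

namespace Crest.Agent.S0112Aux

open Crest.OpAlg Filter MeasureTheory
open scoped Topology

variable {H : Type*} [NormedAddCommGroup H] [InnerProductSpace ℂ H] [CompleteSpace H]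

theorem norm_add_sq_le_two {E : Type*} [SeminormedAddCommGroup E] (p q : E) :
    ‖p + q‖ ^ 2 ≤ 2 * ‖p‖ ^ 2 + 2 * ‖q‖ ^ 2 := by
  have h1 : ‖p + q‖ ≤ ‖p‖ + ‖q‖ := norm_add_le _ _
  have h2 : ‖p + q‖ ^ 2 ≤ (‖p‖ + ‖q‖) ^ 2 := by gcongr
  nlinarith [sq_nonneg (‖p‖ - ‖q‖)]

theorem inner_vac_star_mul (ξ : H) (a : H →L[ℂ] H) :
    inner ℂ ξ ((star a * a) ξ) = ((‖a ξ‖ ^ 2 : ℝ) : ℂ) := by
  rw [mul_apply_eq_comp, ContinuousLinearMap.star_eq_adjoint,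
    ContinuousLinearMap.adjoint_inner_right, inner_self_eq_norm_sq_to_K]
  norm_cast

theorem inner_vac_mul_star (ξ : H) (a : H →L[ℂ] H) :
    inner ℂ ξ ((a * star a) ξ) = ((‖(star a) ξ‖ ^ 2 : ℝ) : ℂ) := by
  have := inner_vac_star_mul ξ (star a)
  rwa [star_star] at this

/-- comparison of `‖T U_t h‖²` and `‖T P U_t (aξ)‖²` -/
theorem compare_F (D : LineCalculus H) (T : H →L[ℂ] H) (ψ : BoundedContinuousFunction ℝ ℂ)
    (C₀ ε₁ : ℝ) (hψn : ‖ψ‖ ≤ C₀) (h g : H) (hPh : D.apply ψ h = h) (hg : ‖g - h‖ ≤ ε₁) (t : ℝ) :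
    ‖T (D.wave t h)‖ ^ 2 ≤ 2 * ‖T (D.apply ψ (D.wave t g))‖ ^ 2 + 2 * (‖T‖ * C₀ * ε₁) ^ 2 := by
  have h1 : T (D.wave t h) = T (D.apply ψ (D.wave t g)) + T (D.apply ψ (D.wave t (h - g))) := by
    rw [← map_add, ← map_add, ← map_add, add_sub_cancel, ← wave_apply_comm, hPh]
  have h2 : ‖T (D.apply ψ (D.wave t (h - g)))‖ ≤ ‖T‖ * C₀ * ε₁ := by
    calc ‖T (D.apply ψ (D.wave t (h - g)))‖ ≤ ‖T‖ * ‖D.apply ψ (D.wave t (h - g))‖ :=
          T.le_opNorm _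
      _ ≤ ‖T‖ * (‖ψ‖ * ‖D.wave t (h - g)‖) := by gcongr; exact norm_apply_apply_le _ _ _
      _ ≤ ‖T‖ * (C₀ * ε₁) := by
          rw [norm_wave_apply, norm_sub_rev]
          have : 0 ≤ C₀ := (norm_nonneg _).trans hψn
          gcongr
      _ = _ := by ring
  rw [h1]
  refine (norm_add_sq_le_two _ _).trans ?_
  have : ‖T (D.apply ψ (D.wave t (h - g)))‖ ^ 2 ≤ (‖T‖ * C₀ * ε₁) ^ 2 := by gcongr
  linarith


theorem core_data (S : ModularDatum H) (herg : S.Ergodic) (ω : Ultrafilter ℕ)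
    (hω : (ω : Filter ℕ) ≤ Filter.atTop) (T : H →L[ℂ] H) (s c : ℝ) (hc : 0 < c) (C₀ : ℝ)
    (δ : ℝ) (hδ : 0 < δ) (hδ1 : δ ≤ 1) (h : H) (hh : ‖h‖ = 1)
    (hband : S.D.SupportedIn (Set.Icc (s - δ) (s + δ)) h)
    (hmean : c ≤ ultraMean ω (fun t : ℝ => ‖T (S.D.wave t h)‖ ^ 2))
    (ψ : BoundedContinuousFunction ℝ ℂ) (hψ1 : ∀ u ∈ Set.Icc (s - δ) (s + δ), ψ u = 1)
    (hψn : ‖ψ‖ ≤ C₀) :
    ∃ (a : H →L[ℂ] H) (n : ℕ) (w t : Fin n → ℝ), a ∈ S.M ∧ (∀ i, 0 ≤ w i) ∧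
      c / 4 ≤ ∑ i, w i * ‖T (S.D.apply ψ (S.D.wave (t i) (a S.vac)))‖ ^ 2 ∧
      ‖∑ k, (w k : ℂ) • S.D.wave (t k) ((star a * a) S.vac)‖ ^ 2 ≤ 25 ∧
      ∑ k, ∑ l, w k * w l * ‖(S.flow (t k) (star a)) (S.D.wave (t l) (a S.vac))‖ ^ 2
        ≤ 8 * Real.exp (s + 1) + 9 := by
  have hC₀ : 0 ≤ C₀ := (norm_nonneg _).trans hψn
  have hPh : S.D.apply ψ h = h := apply_eq_self S.D _ ψ hψ1 h hband
  -- choice of ε₁
  set τ : ℝ := ‖T‖ * C₀ with hτ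
  have hτ0 : 0 ≤ τ := mul_nonneg (norm_nonneg _) hC₀
  set ε₁ : ℝ := min 1 (Real.sqrt (c / 8) / (τ + 1)) with hε₁
  have hε₁pos : 0 < ε₁ := by
    refine lt_min one_pos (div_pos (Real.sqrt_pos.mpr (by linarith)) (by linarith))
  have hε₁1 : ε₁ ≤ 1 := min_le_left _ _
  have hτε : (τ * ε₁) ^ 2 ≤ c / 8 := by
    have h1 : ε₁ ≤ Real.sqrt (c / 8) / (τ + 1) := min_le_right _ _
    have h2 : τ * ε₁ ≤ Real.sqrt (c / 8) := by
      calc τ * ε₁ ≤ τ * (Real.sqrt (c / 8) / (τ + 1)) := by gcongr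
        _ = Real.sqrt (c / 8) * (τ / (τ + 1)) := by ring
        _ ≤ Real.sqrt (c / 8) * 1 := by
            gcongr
            rw [div_le_one (by linarith)]; linarith
        _ = _ := mul_one _
    calc (τ * ε₁) ^ 2 ≤ (Real.sqrt (c / 8)) ^ 2 := by
          have : 0 ≤ τ * ε₁ := mul_nonneg hτ0 hε₁pos.le
          gcongr
      _ = c / 8 := Real.sq_sqrt (by linarith)
  obtain ⟨a, haM, ha1, ha2⟩ := exists_approx S s δ hδ.le h hband ε₁ hε₁pos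
  rw [hh, mul_one] at ha2
  -- norms of aξ and a⋆ξ
  have haξ : ‖a S.vac‖ ≤ 2 := by
    have : ‖a S.vac‖ ≤ ‖a S.vac - h‖ + ‖h‖ := by
      simpa using norm_add_le (a S.vac - h) h
    rw [hh] at this; linarith
  have haξ2 : ‖a S.vac‖ ^ 2 ≤ 4 := by nlinarith [norm_nonneg (a S.vac)]
  have hE : Real.exp ((s + δ) / 2) ^ 2 ≤ Real.exp (s + 1) := by
    rw [← Real.exp_nat_mul]
    apply Real.exp_le_exp.mpr
    push_cast; linarith
  have hasξ2 : ‖(star a) S.vac‖ ^ 2 ≤ 2 * Real.exp (s + 1) + 2 := by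
    have h0 : 0 < Real.exp ((s + δ) / 2) := Real.exp_pos _
    have h1 : ‖(star a) S.vac‖ ≤ Real.exp ((s + δ) / 2) + 1 := by linarith
    have h2 : ‖(star a) S.vac‖ ^ 2 ≤ (Real.exp ((s + δ) / 2) + 1) ^ 2 := by gcongr
    nlinarith [sq_nonneg (Real.exp ((s + δ) / 2) - 1)]
  set φ₁ : ℝ := ‖a S.vac‖ ^ 2 with hφ₁
  set φ₂ : ℝ := ‖(star a) S.vac‖ ^ 2 with hφ₂
  have hφ₂0 : 0 ≤ φ₂ := by positivity
  -- choice of b
  set ε₃ : ℝ := 1 / (4 * (‖a * star a‖ + φ₂ + 1)) with hε₃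
  have hden3 : 0 < ‖a * star a‖ + φ₂ + 1 := by positivity
  have hε₃pos : 0 < ε₃ := by positivity
  obtain ⟨b, hbM, hb⟩ : ∃ b : H →L[ℂ] H, b ∈ S.M.commutant ∧ ‖a S.vac - b S.vac‖ < ε₃ := by
    have := (dense_commutant_vac S) (a S.vac)
    rw [Metric.mem_closure_iff] at this
    obtain ⟨ζ, ⟨b, hbM, rfl⟩, hd⟩ := this ε₃ hε₃pos
    exact ⟨b, hbM, by rwa [dist_eq_norm] at hd⟩
  set ε₂ : ℝ := min 1 (1 / (4 * (‖b‖ + 1))) with hε₂
  have hε₂pos : 0 < ε₂ := lt_min one_pos (by positivity)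
  have hε₂1 : ε₂ ≤ 1 := min_le_left _ _
  have hε₂b : ‖b‖ * ε₂ ≤ 1 / 4 := by
    have h1 : ε₂ ≤ 1 / (4 * (‖b‖ + 1)) := min_le_right _ _
    calc ‖b‖ * ε₂ ≤ ‖b‖ * (1 / (4 * (‖b‖ + 1))) := by gcongr
      _ = (1 / 4) * (‖b‖ / (‖b‖ + 1)) := by field_simp
      _ ≤ (1 / 4) * 1 := by
          gcongr
          rw [div_le_one (by positivity)]; linarith
      _ = 1 / 4 := by ring
  have hε₃x : (‖a * star a‖ + φ₂) * ε₃ ≤ 1 / 4 := by
    rw [hε₃]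
    calc (‖a * star a‖ + φ₂) * (1 / (4 * (‖a * star a‖ + φ₂ + 1)))
        = (1 / 4) * ((‖a * star a‖ + φ₂) / (‖a * star a‖ + φ₂ + 1)) := by field_simp
      _ ≤ (1 / 4) * 1 := by
          gcongr
          rw [div_le_one hden3]; linarith
      _ = 1 / 4 := by ring
  have hx₁ : star a * a ∈ S.M := by
    have : star a * a ∈ S.M.toStarSubalgebra :=
      mul_mem (star_mem (s := S.M.toStarSubalgebra) haM) haM
    exact this
  have hx₂ : a * star a ∈ S.M := by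
    have : a * star a ∈ S.M.toStarSubalgebra :=
      mul_mem haM (star_mem (s := S.M.toStarSubalgebra) haM)
    exact this
  obtain ⟨n, w, r, hw, hw1, hav1, hav2⟩ := exists_average₂ S herg _ _ hx₁ hx₂ ε₂ hε₂pos
  rw [inner_vac_star_mul] at hav1
  rw [inner_vac_mul_star] at hav2
  -- the good time
  have hFc : Continuous (fun t : ℝ => ‖T (S.D.wave t h)‖ ^ 2) :=
    ((T.continuous.comp (continuous_wave S.D h)).norm).pow 2
  have hFb : ∀ t : ℝ, 0 ≤ ‖T (S.D.wave t h)‖ ^ 2 ∧ ‖T (S.D.wave t h)‖ ^ 2 ≤ ‖T‖ ^ 2 := by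
    intro t
    refine ⟨by positivity, ?_⟩
    have : ‖T (S.D.wave t h)‖ ≤ ‖T‖ := by
      have := T.le_opNorm (S.D.wave t h)
      rwa [norm_wave_apply, hh, mul_one] at this
    gcongr
  obtain ⟨t₀, ht₀⟩ := exists_time ω hω _ hFc (‖T‖ ^ 2) hFb c hmean n w r hw hw1 (c / 4)
    (by linarith)
  refine ⟨a, n, w, fun i => t₀ + r i, haM, hw, ?_, ?_, ?_⟩
  · -- Q3
    have hcmp : ∀ i, ‖T (S.D.wave (t₀ + r i) h)‖ ^ 2
        ≤ 2 * ‖T (S.D.apply ψ (S.D.wave (t₀ + r i) (a S.vac)))‖ ^ 2 + 2 * (c / 8) := by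
      intro i
      have := compare_F S.D T ψ C₀ ε₁ hψn h (a S.vac) hPh ha1.le (t₀ + r i)
      linarith
    have hsum : ∑ i, w i * ‖T (S.D.wave (t₀ + r i) h)‖ ^ 2
        ≤ 2 * ∑ i, w i * ‖T (S.D.apply ψ (S.D.wave (t₀ + r i) (a S.vac)))‖ ^ 2 + 2 * (c / 8) := by
      calc ∑ i, w i * ‖T (S.D.wave (t₀ + r i) h)‖ ^ 2
          ≤ ∑ i, w i * (2 * ‖T (S.D.apply ψ (S.D.wave (t₀ + r i) (a S.vac)))‖ ^ 2 + 2 * (c / 8)) :=
            Finset.sum_le_sum fun i _ => mul_le_mul_of_nonneg_left (hcmp i) (hw i)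
        _ = 2 * ∑ i, w i * ‖T (S.D.apply ψ (S.D.wave (t₀ + r i) (a S.vac)))‖ ^ 2
              + (∑ i, w i) * (2 * (c / 8)) := by
            rw [Finset.mul_sum, Finset.sum_mul, ← Finset.sum_add_distrib]
            refine Finset.sum_congr rfl fun i _ => ?_
            ring
        _ = _ := by rw [hw1, one_mul]
    linarith
  · -- Q1
    have h1 : ‖∑ k, (w k : ℂ) • S.D.wave (t₀ + r k) ((star a * a) S.vac)
        - ((φ₁ : ℝ) : ℂ) • S.vac‖ < ε₂ := by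
      rw [avg_shift]; exact hav1
    have h2 : ‖∑ k, (w k : ℂ) • S.D.wave (t₀ + r k) ((star a * a) S.vac)‖ ≤ 5 := by
      have h3 : ‖((φ₁ : ℝ) : ℂ) • S.vac‖ ≤ 4 := by
        rw [norm_smul, S.norm_vac, mul_one, Complex.norm_real, Real.norm_eq_abs,
          abs_of_nonneg (by positivity)]
        exact haξ2
      have h4 := norm_add_le (∑ k, (w k : ℂ) • S.D.wave (t₀ + r k) ((star a * a) S.vac)
        - ((φ₁ : ℝ) : ℂ) • S.vac) (((φ₁ : ℝ) : ℂ) • S.vac)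
      rw [sub_add_cancel] at h4
      linarith
    calc _ ≤ (5 : ℝ) ^ 2 := by gcongr
      _ = 25 := by norm_num
  · -- Q2
    have h1 : ‖∑ k, (w k : ℂ) • S.D.wave (t₀ + r k) ((a * star a) S.vac)
        - ((φ₂ : ℝ) : ℂ) • S.vac‖ ≤ ε₂ := by
      rw [avg_shift]; exact hav2.le
    have h2 := Q2_est S a haM n w (fun i => t₀ + r i) hw hw1 φ₂ ε₂ ε₃ hφ₂0 b hbM h1 hb.le
    refine h2.trans ?_
    have h3 : ‖a S.vac‖ * ((‖a * star a‖ + φ₂) * ε₃ + ‖b‖ * ε₂) ≤ 2 * (1 / 4 + 1 / 4) := by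
      have : 0 ≤ (‖a * star a‖ + φ₂) * ε₃ + ‖b‖ * ε₂ := by positivity
      gcongr
    have h4 : φ₂ * ‖a S.vac‖ ^ 2 ≤ (2 * Real.exp (s + 1) + 2) * 4 := by
      gcongr
    linarith


theorem core (S : ModularDatum H) (herg : S.Ergodic) (ω : Ultrafilter ℕ)
    (hω : (ω : Filter ℕ) ≤ Filter.atTop) (T : H →L[ℂ] H) (s c : ℝ) (hc : 0 < c) :
    ∃ C η : ℝ, 0 < η ∧ ∀ (δ : ℝ) (h : H), 0 < δ → δ ≤ 1 → ‖h‖ = 1 →
      S.D.SupportedIn (Set.Icc (s - δ) (s + δ)) h →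
      c ≤ ultraMean ω (fun t : ℝ => ‖T (S.D.wave t h)‖ ^ 2) →
      ∃ v : H →L[ℂ] H, v ∈ S.M ∧ ‖v‖ ≤ C ∧ η ≤ ‖T (v S.vac)‖ ∧
        S.D.SupportedIn (Set.Icc (s - 4 * δ) (s + 4 * δ)) (v S.vac) := by
  obtain ⟨C₀, hC₀, hfilter⟩ := exists_band_filter (H := H)
  set Qb : ℝ := 16 * Real.exp (s + 1) + 43 with hQb
  have hQbpos : 0 < Qb := by positivity
  set lam : ℝ := (c / 4) / (2 * Qb) with hlam
  have hlampos : 0 < lam := by positivity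
  set τ2 : ℝ := ‖T‖ ^ 2 * C₀ ^ 2 with hτ2
  have hτ2nn : 0 ≤ τ2 := by positivity
  set κ : ℝ := lam / (τ2 + 1) with hκ
  have hκpos : 0 < κ := by positivity
  have hκτ : τ2 * κ ≤ lam := by
    rw [hκ]
    calc τ2 * (lam / (τ2 + 1)) = lam * (τ2 / (τ2 + 1)) := by ring
      _ ≤ lam * 1 := by
          gcongr
          rw [div_le_one (by linarith)]; linarith
      _ = lam := mul_one _
  refine ⟨C₀ * Real.sqrt (1 / (2 * κ)), Real.sqrt c / 4, by positivity, ?_⟩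
  intro δ h hδ hδ1 hh hband hmean
  obtain ⟨ψ, hψ1, hψ0, hψn, hψM⟩ := hfilter S (wave_vac S) s δ hδ
  obtain ⟨a, n, w, t, haM, hw, hQ3, hQ1, hQ2⟩ :=
    core_data S herg ω hω T s c hc C₀ δ hδ hδ1 h hh hband hmean ψ hψ1 hψn
  obtain ⟨v, hvM, hv⟩ := signs_step S T (S.D.apply ψ) a haM n w t hw lam hlampos.le
  obtain ⟨v', hv'M, hv'n, hv'ξ⟩ := exists_truncation S.M v hvM κ hκpos S.vac
  obtain ⟨y, hyM, hyn, hyξ⟩ := hψM v' hv'M
  set Y : ℝ := ‖T (S.D.apply ψ (v S.vac))‖ ^ 2 with hY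
  set W : ℝ := ‖(star v * v) S.vac‖ ^ 2 with hW
  have hW0 : 0 ≤ W := by positivity
  -- lower bound from the signs
  have hlow : c / 8 + lam * W ≤ Y := by
    have h1 : lam * (‖∑ k, (w k : ℂ) • S.D.wave (t k) ((star a * a) S.vac)‖ ^ 2
          + 2 * ∑ k, ∑ l, w k * w l *
              ‖(S.flow (t k) (star a)) (S.D.wave (t l) (a S.vac))‖ ^ 2) ≤ lam * Qb := by
      apply mul_le_mul_of_nonneg_left _ hlampos.le
      rw [hQb]; linarith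
    have h2 : lam * Qb = c / 8 := by
      rw [hlam]; field_simp; ring
    linarith
  -- upper bound through the truncation
  have hup : Y ≤ 2 * ‖T (y S.vac)‖ ^ 2 + lam * W := by
    have h1 : T (S.D.apply ψ (v S.vac))
        = T (y S.vac) + T (S.D.apply ψ (v S.vac - v' S.vac)) := by
      rw [hyξ, ← map_add, ← map_add, add_sub_cancel]
    have h2 : ‖T (S.D.apply ψ (v S.vac - v' S.vac))‖ ^ 2 ≤ τ2 * (κ / 2 * W) := by
      have h3 : ‖T (S.D.apply ψ (v S.vac - v' S.vac))‖ ≤ ‖T‖ * (C₀ * ‖v S.vac - v' S.vac‖) := by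
        calc _ ≤ ‖T‖ * ‖S.D.apply ψ (v S.vac - v' S.vac)‖ := T.le_opNorm _
          _ ≤ ‖T‖ * (‖ψ‖ * ‖v S.vac - v' S.vac‖) := by
              gcongr; exact norm_apply_apply_le _ _ _
          _ ≤ _ := by gcongr
      calc ‖T (S.D.apply ψ (v S.vac - v' S.vac))‖ ^ 2
          ≤ (‖T‖ * (C₀ * ‖v S.vac - v' S.vac‖)) ^ 2 := by gcongr
        _ = τ2 * ‖v S.vac - v' S.vac‖ ^ 2 := by rw [hτ2]; ring
        _ ≤ τ2 * (κ / 2 * W) := by gcongr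
    have h4 : Y ≤ 2 * ‖T (y S.vac)‖ ^ 2 + 2 * ‖T (S.D.apply ψ (v S.vac - v' S.vac))‖ ^ 2 := by
      rw [hY, h1]; exact norm_add_sq_le_two _ _
    have h5 : 2 * (τ2 * (κ / 2 * W)) = (τ2 * κ) * W := by ring
    have h6 : (τ2 * κ) * W ≤ lam * W := by gcongr
    linarith
  refine ⟨y, hyM, ?_, ?_, ?_⟩
  · have h1 : ‖v'‖ ≤ Real.sqrt (1 / (2 * κ)) := Real.le_sqrt_of_sq_le hv'n
    calc ‖y‖ ≤ C₀ * ‖v'‖ := hyn
      _ ≤ _ := by gcongr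
  · have h1 : c / 16 ≤ ‖T (y S.vac)‖ ^ 2 := by linarith
    have h2 : (Real.sqrt c / 4) ^ 2 = c / 16 := by
      rw [div_pow, Real.sq_sqrt hc.le]; norm_num
    have h3 : (Real.sqrt c / 4) ^ 2 ≤ ‖T (y S.vac)‖ ^ 2 := by rw [h2]; exact h1
    exact (pow_le_pow_iff_left₀ (by positivity) (norm_nonneg _) two_ne_zero).mp h3
  · rw [hyξ]
    exact supportedIn_apply S.D _ ψ hψ0 _

end Crest.Agent.S0112Aux
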