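import Crest.Prelude.Def_ModularData

/-! Calculus toolkit for S0112 (section 0 of helper21's proof): facts about `LineCalculus`. -/

set_option autoImplicit false

open Crest.OpAlg Filter MeasureTheory
open scoped Topology BoundedContinuousFunction InnerProductSpace

namespace Crest.Agent.S0112Aux

variable {H : Type*} [NormedAddCommGroup H] [InnerProductSpace ℂ H] [CompleteSpace H]

noncomputable local instance instCStarAlgebraBCF : CStarAlgebra (ℝ →ᵇ ℂ) where

/-- (C1) the calculus is norm contractive. -/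
theorem calc_norm_apply_le (D : LineCalculus H) (f : ℝ →ᵇ ℂ) : ‖D.apply f‖ ≤ ‖f‖ :=
  NonUnitalStarAlgHom.norm_apply_le D.apply f

theorem calc_norm_apply_vec_le (D : LineCalculus H) (f : ℝ →ᵇ ℂ) (x : H) :
    ‖D.apply f x‖ ≤ ‖f‖ * ‖x‖ :=
  ((D.apply f).le_opNorm x).trans
    (mul_le_mul_of_nonneg_right (calc_norm_apply_le D f) (norm_nonneg _))

theorem calc_apply_mul (D : LineCalculus H) (f g : ℝ →ᵇ ℂ) (x : H) :
    D.apply (f * g) x = D.apply f (D.apply g x) := by
  rw [map_mul]; rfl

theorem calc_apply_comm (D : LineCalculus H) (f g : ℝ →ᵇ ℂ) (x : H) :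
    D.apply f (D.apply g x) = D.apply g (D.apply f x) := by
  rw [← calc_apply_mul, ← calc_apply_mul, mul_comm]

theorem calc_apply_one (D : LineCalculus H) (x : H) : D.apply 1 x = x := by
  rw [map_one]; rfl

theorem calc_apply_sub (D : LineCalculus H) (f g : ℝ →ᵇ ℂ) (x : H) :
    D.apply (f - g) x = D.apply f x - D.apply g x := by
  rw [map_sub]; rfl

theorem calc_apply_add (D : LineCalculus H) (f g : ℝ →ᵇ ℂ) (x : H) :
    D.apply (f + g) x = D.apply f x + D.apply g x := by
  rw [map_add]; rfl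

theorem calc_apply_smul (D : LineCalculus H) (c : ℂ) (f : ℝ →ᵇ ℂ) (x : H) :
    D.apply (c • f) x = c • D.apply f x := by
  rw [map_smul]; rfl

theorem calc_adjoint (D : LineCalculus H) (f : ℝ →ᵇ ℂ) :
    ContinuousLinearMap.adjoint (D.apply f) = D.apply (star f) := by
  rw [map_star]; rfl

theorem calc_inner_apply_left (D : LineCalculus H) (f : ℝ →ᵇ ℂ) (x y : H) :
    ⟪D.apply f x, y⟫_ℂ = ⟪x, D.apply (star f) y⟫_ℂ := by
  rw [← calc_adjoint, ContinuousLinearMap.adjoint_inner_right]

theorem calc_inner_apply_right (D : LineCalculus H) (f : ℝ →ᵇ ℂ) (x y : H) :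
    ⟪x, D.apply f y⟫_ℂ = ⟪D.apply (star f) x, y⟫_ℂ := by
  rw [← calc_adjoint, ContinuousLinearMap.adjoint_inner_left]

/-! ### (C2) the unitary group -/

theorem character_apply (t u : ℝ) :
    LineCalculus.character t u = Complex.exp (Complex.I * ((t * u : ℝ) : ℂ)) := rfl

theorem character_zero : LineCalculus.character 0 = 1 := by
  ext u; simp [character_apply]

theorem character_add (s t : ℝ) :
    LineCalculus.character (s + t) = LineCalculus.character s * LineCalculus.character t := by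
  ext u
  simp only [character_apply, BoundedContinuousFunction.coe_mul, Pi.mul_apply, ← Complex.exp_add]
  congr 1; push_cast; ring

theorem star_character (t : ℝ) :
    star (LineCalculus.character t) = LineCalculus.character (-t) := by
  ext u
  simp only [character_apply, BoundedContinuousFunction.star_apply]
  rw [Complex.star_def, ← Complex.exp_conj]
  congr 1
  simp [Complex.conj_ofReal]

theorem norm_character_apply (t u : ℝ) : ‖LineCalculus.character t u‖ = 1 := by
  rw [character_apply, mul_comm, Complex.norm_exp_ofReal_mul_I]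

theorem wave_zero (D : LineCalculus H) : D.wave 0 = 1 := by
  unfold LineCalculus.wave; rw [character_zero, map_one]

theorem wave_add (D : LineCalculus H) (s t : ℝ) : D.wave (s + t) = D.wave s * D.wave t := by
  unfold LineCalculus.wave; rw [character_add, map_mul]

theorem wave_add_apply (D : LineCalculus H) (s t : ℝ) (x : H) :
    D.wave (s + t) x = D.wave s (D.wave t x) := by
  rw [wave_add]; rfl

theorem wave_neg_wave (D : LineCalculus H) (t : ℝ) (x : H) : D.wave (-t) (D.wave t x) = x := by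
  rw [← wave_add_apply, neg_add_cancel, wave_zero]; rfl

theorem wave_wave_neg (D : LineCalculus H) (t : ℝ) (x : H) : D.wave t (D.wave (-t) x) = x := by
  rw [← wave_add_apply, add_neg_cancel, wave_zero]; rfl

theorem wave_adjoint (D : LineCalculus H) (t : ℝ) :
    ContinuousLinearMap.adjoint (D.wave t) = D.wave (-t) := by
  unfold LineCalculus.wave; rw [calc_adjoint, star_character]

theorem star_wave (D : LineCalculus H) (t : ℝ) : star (D.wave t) = D.wave (-t) :=
  wave_adjoint D t

theorem wave_inner_wave (D : LineCalculus H) (t : ℝ) (x y : H) :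
    ⟪D.wave t x, D.wave t y⟫_ℂ = ⟪x, y⟫_ℂ := by
  rw [← ContinuousLinearMap.adjoint_inner_right, wave_adjoint, wave_neg_wave]

theorem wave_inner_left (D : LineCalculus H) (t : ℝ) (x y : H) :
    ⟪D.wave t x, y⟫_ℂ = ⟪x, D.wave (-t) y⟫_ℂ := by
  rw [← wave_adjoint, ContinuousLinearMap.adjoint_inner_right]

theorem norm_wave_apply (D : LineCalculus H) (t : ℝ) (x : H) : ‖D.wave t x‖ = ‖x‖ := by
  have h := wave_inner_wave D t x x
  rw [inner_self_eq_norm_sq_to_K, inner_self_eq_norm_sq_to_K] at h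
  have h2 : ‖D.wave t x‖ ^ 2 = ‖x‖ ^ 2 := by exact_mod_cast h
  exact (sq_eq_sq₀ (norm_nonneg _) (norm_nonneg _)).mp h2

theorem norm_wave_le (D : LineCalculus H) (t : ℝ) : ‖D.wave t‖ ≤ 1 :=
  ContinuousLinearMap.opNorm_le_bound _ zero_le_one (fun x => by rw [norm_wave_apply, one_mul])

theorem apply_wave_comm (D : LineCalculus H) (f : ℝ →ᵇ ℂ) (t : ℝ) (x : H) :
    D.apply f (D.wave t x) = D.wave t (D.apply f x) :=
  calc_apply_comm D f _ x

/-! ### (C4) spectral subspaces -/

theorem supportedIn_zero (D : LineCalculus H) (K : Set ℝ) : D.SupportedIn K (0 : H) :=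
  fun _ _ => map_zero _

theorem supportedIn_add (D : LineCalculus H) {K : Set ℝ} {x y : H} (hx : D.SupportedIn K x)
    (hy : D.SupportedIn K y) : D.SupportedIn K (x + y) :=
  fun f hf => by rw [map_add, hx f hf, hy f hf, add_zero]

theorem supportedIn_smul (D : LineCalculus H) {K : Set ℝ} {x : H} (c : ℂ)
    (hx : D.SupportedIn K x) : D.SupportedIn K (c • x) :=
  fun f hf => by rw [map_smul, hx f hf, smul_zero]

theorem supportedIn_neg (D : LineCalculus H) {K : Set ℝ} {x : H}
    (hx : D.SupportedIn K x) : D.SupportedIn K (-x) :=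
  fun f hf => by rw [map_neg, hx f hf, neg_zero]

theorem supportedIn_sub (D : LineCalculus H) {K : Set ℝ} {x y : H} (hx : D.SupportedIn K x)
    (hy : D.SupportedIn K y) : D.SupportedIn K (x - y) :=
  fun f hf => by rw [map_sub, hx f hf, hy f hf, sub_zero]

theorem supportedIn_sum (D : LineCalculus H) {K : Set ℝ} {ι : Type*} (s : Finset ι) (x : ι → H)
    (hx : ∀ i ∈ s, D.SupportedIn K (x i)) : D.SupportedIn K (∑ i ∈ s, x i) :=
  fun f hf => by
    rw [map_sum]; exact Finset.sum_eq_zero (fun i hi => hx i hi f hf)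

theorem supportedIn_mono (D : LineCalculus H) {K K' : Set ℝ} (h : K ⊆ K') {x : H}
    (hx : D.SupportedIn K x) : D.SupportedIn K' x :=
  fun f hf => hx f (fun u hu => hf u (h hu))

theorem supportedIn_apply_of_supportedIn (D : LineCalculus H) {K : Set ℝ} {x : H} (g : ℝ →ᵇ ℂ)
    (hx : D.SupportedIn K x) : D.SupportedIn K (D.apply g x) :=
  fun f hf => by rw [calc_apply_comm, hx f hf, map_zero]

theorem supportedIn_wave (D : LineCalculus H) (K : Set ℝ) (t : ℝ) (x : H)
    (hx : D.SupportedIn K x) : D.SupportedIn K (D.wave t x) :=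
  supportedIn_apply_of_supportedIn D _ hx

/-- two functions agreeing on `K` act in the same way on `E[K]`. -/
theorem supportedIn_apply_congr (D : LineCalculus H) {K : Set ℝ} {x : H}
    (hx : D.SupportedIn K x) {f g : ℝ →ᵇ ℂ} (hfg : ∀ u ∈ K, f u = g u) :
    D.apply f x = D.apply g x := by
  have := hx (f - g) (fun u hu => by simp [hfg u hu])
  rw [calc_apply_sub] at this
  exact sub_eq_zero.mp this

theorem supportedIn_apply_eq_self (D : LineCalculus H) {K : Set ℝ} {x : H}
    (hx : D.SupportedIn K x) {chi : ℝ →ᵇ ℂ} (h : ∀ u ∈ K, chi u = 1) : D.apply chi x = x := by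
  rw [supportedIn_apply_congr D hx (g := 1) (fun u hu => by simp [h u hu]), calc_apply_one]

theorem supportedIn_of_vanish_off (D : LineCalculus H) {K : Set ℝ} (x : H) {chi : ℝ →ᵇ ℂ}
    (h : ∀ u, u ∉ K → chi u = 0) : D.SupportedIn K (D.apply chi x) := by
  intro f hf
  rw [← calc_apply_mul]
  have : f * chi = 0 := by
    ext u
    by_cases hu : u ∈ K
    · simp [hf u hu]
    · simp [h u hu]
  rw [this, map_zero]; rfl

theorem supportedIn_isClosed (D : LineCalculus H) (K : Set ℝ) :
    IsClosed {x : H | D.SupportedIn K x} := by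
  have : {x : H | D.SupportedIn K x} =
      ⋂ (f : ℝ →ᵇ ℂ) (_ : ∀ u ∈ K, f u = 0), {x : H | D.apply f x = 0} := by
    ext x; simp [LineCalculus.SupportedIn]
  rw [this]
  exact isClosed_iInter fun f => isClosed_iInter fun _ =>
    isClosed_eq (D.apply f).continuous continuous_const

/-! ### (C5) -/

theorem eq_zero_of_forall_compactSupport (D : LineCalculus H) (r : H)
    (h : ∀ f : ℝ →ᵇ ℂ, HasCompactSupport (f : ℝ → ℂ) → D.apply f r = 0) : r = 0 := by
  by_contra hr
  obtain ⟨f, hf, hlt⟩ := D.window r ‖r‖ (norm_pos_iff.mpr hr)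
  rw [h f hf, zero_sub, norm_neg] at hlt
  exact lt_irrefl _ hlt

theorem eq_of_forall_compactSupport (D : LineCalculus H) (r r' : H)
    (h : ∀ f : ℝ →ᵇ ℂ, HasCompactSupport (f : ℝ → ℂ) → D.apply f r = D.apply f r') : r = r' :=
  sub_eq_zero.mp (eq_zero_of_forall_compactSupport D _ (fun f hf => by
    rw [map_sub, h f hf, sub_self]))


/-! ### (C3) strong continuity of the unitary group -/

theorem exists_radius_of_compactSupport {g : ℝ →ᵇ ℂ} (hg : HasCompactSupport (g : ℝ → ℂ)) :
    ∃ R : ℝ, 0 ≤ R ∧ ∀ u : ℝ, R < |u| → g u = 0 := by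
  obtain ⟨R, hR⟩ := hg.isCompact.isBounded.subset_closedBall (0 : ℝ)
  refine ⟨max R 0, le_max_right _ _, fun u hu => ?_⟩
  by_contra hne
  have hmem : u ∈ tsupport (g : ℝ → ℂ) := subset_tsupport _ hne
  have := hR hmem
  rw [mem_closedBall_zero_iff, Real.norm_eq_abs] at this
  exact absurd (lt_of_le_of_lt (le_max_left R 0) hu) (not_lt.mpr this)

theorem norm_character_sub_le (t t' u : ℝ) :
    ‖LineCalculus.character t u - LineCalculus.character t' u‖ ≤ |t - t'| * |u| := by
  have h1 : LineCalculus.character t u - LineCalculus.character t' u =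
      LineCalculus.character t' u * (Complex.exp (Complex.I * (((t - t') * u : ℝ) : ℂ)) - 1) := by
    simp only [character_apply]
    rw [mul_sub, mul_one, ← Complex.exp_add]
    congr 2; push_cast; ring
  rw [h1, norm_mul, norm_character_apply, one_mul]
  refine (Real.norm_exp_I_mul_ofReal_sub_one_le).trans ?_
  rw [Real.norm_eq_abs, abs_mul]

theorem norm_character_mul_sub_le {g : ℝ →ᵇ ℂ} {R : ℝ} (hR : 0 ≤ R)
    (hg : ∀ u : ℝ, R < |u| → g u = 0) (t t' : ℝ) :
    ‖LineCalculus.character t * g - LineCalculus.character t' * g‖ ≤ |t - t'| * R * ‖g‖ := by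
  rw [BoundedContinuousFunction.norm_le (by positivity)]
  intro u
  simp only [BoundedContinuousFunction.coe_sub, BoundedContinuousFunction.coe_mul, Pi.sub_apply,
    Pi.mul_apply]
  rw [← sub_mul, norm_mul]
  by_cases hu : R < |u|
  · rw [hg u hu, norm_zero, mul_zero]; positivity
  · rw [not_lt] at hu
    refine mul_le_mul ((norm_character_sub_le t t' u).trans ?_) (g.norm_coe_le_norm u)
      (norm_nonneg _) (by positivity)
    exact mul_le_mul_of_nonneg_left hu (abs_nonneg _)

theorem continuous_character_mul {g : ℝ →ᵇ ℂ} (hg : HasCompactSupport (g : ℝ → ℂ)) :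
    Continuous fun t : ℝ => LineCalculus.character t * g := by
  obtain ⟨R, hR, hgR⟩ := exists_radius_of_compactSupport hg
  have : LipschitzWith (Real.toNNReal (R * ‖g‖)) fun t : ℝ => LineCalculus.character t * g := by
    refine LipschitzWith.of_dist_le_mul fun t t' => ?_
    rw [dist_eq_norm, Real.coe_toNNReal _ (by positivity), Real.dist_eq]
    calc _ ≤ |t - t'| * R * ‖g‖ := norm_character_mul_sub_le hR hgR t t'
      _ = R * ‖g‖ * |t - t'| := by ring
  exact this.continuous

/-- the continuous linear map `f ↦ f(D) x`. -/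
noncomputable def applyVecCLM (D : LineCalculus H) (x : H) : (ℝ →ᵇ ℂ) →L[ℂ] H :=
  LinearMap.mkContinuous
    { toFun := fun f => D.apply f x
      map_add' := fun f g => calc_apply_add D f g x
      map_smul' := fun c f => calc_apply_smul D c f x } ‖x‖
    (fun f => by
      simpa [mul_comm] using calc_norm_apply_vec_le D f x)

@[simp] theorem applyVecCLM_apply (D : LineCalculus H) (x : H) (f : ℝ →ᵇ ℂ) :
    applyVecCLM D x f = D.apply f x := rfl

theorem continuous_wave_apply (D : LineCalculus H) (x : H) : Continuous fun t : ℝ => D.wave t x := by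
  rw [Metric.continuous_iff]
  intro t0 ε hε
  obtain ⟨g, hg, hgx⟩ := D.window x (ε / 3) (by positivity)
  have hc : Continuous fun t : ℝ => D.wave t (D.apply g x) := by
    have : (fun t : ℝ => D.wave t (D.apply g x)) =
        fun t : ℝ => applyVecCLM D x (LineCalculus.character t * g) := by
      funext t
      rw [applyVecCLM_apply, calc_apply_mul]; rfl
    rw [this]
    exact (applyVecCLM D x).continuous.comp (continuous_character_mul hg)
  obtain ⟨δ, hδ, hδ'⟩ := Metric.continuous_iff.mp hc t0 (ε / 3) (by positivity)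
  refine ⟨δ, hδ, fun t ht => ?_⟩
  have h1 := hδ' t ht
  rw [dist_eq_norm] at h1 ⊢
  have e : D.wave t x - D.wave t0 x = - D.wave t (D.apply g x - x)
      + (D.wave t (D.apply g x) - D.wave t0 (D.apply g x)) + D.wave t0 (D.apply g x - x) := by
    simp only [map_sub]; abel
  rw [e]
  calc _ ≤ ‖- D.wave t (D.apply g x - x)‖ + ‖D.wave t (D.apply g x) - D.wave t0 (D.apply g x)‖
        + ‖D.wave t0 (D.apply g x - x)‖ := norm_add₃_le
    _ < ε / 3 + ε / 3 + ε / 3 := by
        rw [norm_neg, norm_wave_apply, norm_wave_apply]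
        gcongr
    _ = ε := by ring

/-! ### (C8) the relation `HalfExp` on bands -/

/-- product of a compactly supported bounded continuous function with a continuous function. -/
noncomputable def mulCc (f : ℝ →ᵇ ℂ) (hf : HasCompactSupport (f : ℝ → ℂ)) (φ : ℝ → ℂ)
    (hφ : Continuous φ) : ℝ →ᵇ ℂ :=
  BoundedContinuousFunction.ofNormedAddCommGroup (fun u => f u * φ u) (f.continuous.mul hφ)
    (Classical.choose ((f.continuous.mul hφ).bounded_above_of_compact_support hf.mul_right))
    (Classical.choose_spec ((f.continuous.mul hφ).bounded_above_of_compact_support hf.mul_right))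

@[simp] theorem mulCc_apply (f : ℝ →ᵇ ℂ) (hf : HasCompactSupport (f : ℝ → ℂ)) (φ : ℝ → ℂ)
    (hφ : Continuous φ) (u : ℝ) : mulCc f hf φ hφ u = f u * φ u := rfl

theorem continuous_halfExp : Continuous fun u : ℝ => ((Real.exp (u / 2) : ℝ) : ℂ) := by
  fun_prop

theorem halfExp_band (D : LineCalculus H) {K : Set ℝ} {x Y : H} (hx : D.SupportedIn K x)
    (hY : D.HalfExp x Y) (m : ℝ →ᵇ ℂ) (hm : ∀ u ∈ K, m u = ((Real.exp (u / 2) : ℝ) : ℂ)) :
    Y = D.apply m x := by
  refine eq_of_forall_compactSupport D _ _ (fun f hf => ?_)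
  rw [hY f (mulCc f hf _ continuous_halfExp) (fun u => rfl), ← calc_apply_mul]
  exact supportedIn_apply_congr D hx (fun u hu => by simp [hm u hu])

/-- `u ↦ exp (min u b / 2)` as a bounded continuous function. -/
noncomputable def halfExpCut (b : ℝ) : ℝ →ᵇ ℂ :=
  BoundedContinuousFunction.ofNormedAddCommGroup
    (fun u => ((Real.exp (min u b / 2) : ℝ) : ℂ)) (by fun_prop) (Real.exp (b / 2))
    (fun u => by
      rw [Complex.norm_real, Real.norm_eq_abs, abs_of_pos (Real.exp_pos _)]
      exact Real.exp_le_exp.mpr (by have := min_le_right u b; linarith))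

theorem halfExpCut_apply (b u : ℝ) : halfExpCut b u = ((Real.exp (min u b / 2) : ℝ) : ℂ) := rfl

theorem norm_halfExpCut_le (b : ℝ) : ‖halfExpCut b‖ ≤ Real.exp (b / 2) := by
  rw [BoundedContinuousFunction.norm_le (Real.exp_pos _).le]
  intro u
  rw [halfExpCut_apply, Complex.norm_real, Real.norm_eq_abs, abs_of_pos (Real.exp_pos _)]
  exact Real.exp_le_exp.mpr (by have := min_le_right u b; linarith)

theorem halfExp_norm_le (D : LineCalculus H) {K : Set ℝ} {b : ℝ} (hK : ∀ u ∈ K, u ≤ b) {x Y : H}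
    (hx : D.SupportedIn K x) (hY : D.HalfExp x Y) : ‖Y‖ ≤ Real.exp (b / 2) * ‖x‖ := by
  rw [halfExp_band D hx hY (halfExpCut b) (fun u hu => by
    rw [halfExpCut_apply, min_eq_left (hK u hu)])]
  exact (calc_norm_apply_vec_le D _ x).trans
    (mul_le_mul_of_nonneg_right (norm_halfExpCut_le b) (norm_nonneg _))

theorem halfExp_of_apply (D : LineCalculus H) (chi chi' : ℝ →ᵇ ℂ)
    (h : ∀ u, chi' u = chi u * ((Real.exp (u / 2) : ℝ) : ℂ)) (x0 : H) :
    D.HalfExp (D.apply chi x0) (D.apply chi' x0) := by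
  intro f g hfg
  rw [← calc_apply_mul, ← calc_apply_mul]
  congr 2
  ext u
  simp only [BoundedContinuousFunction.coe_mul, Pi.mul_apply, h u, hfg u]
  ring


/-! ### helper1's interface (task A of the board) -/

local notation "Cb" => BoundedContinuousFunction ℝ ℂ

theorem norm_apply_le (D : LineCalculus H) (f : Cb) : ‖D.apply f‖ ≤ ‖f‖ := calc_norm_apply_le D f

theorem norm_apply_apply_le (D : LineCalculus H) (f : Cb) (x : H) : ‖D.apply f x‖ ≤ ‖f‖ * ‖x‖ :=
  calc_norm_apply_vec_le D f x

theorem apply_mul_apply (D : LineCalculus H) (f g : Cb) (x : H) :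
    D.apply (f * g) x = D.apply f (D.apply g x) := calc_apply_mul D f g x

theorem apply_comm (D : LineCalculus H) (f g : Cb) (x : H) :
    D.apply f (D.apply g x) = D.apply g (D.apply f x) := calc_apply_comm D f g x

theorem wave_neg_mul (D : LineCalculus H) (t : ℝ) : D.wave (-t) * D.wave t = 1 := by
  rw [← wave_add, neg_add_cancel, wave_zero]

theorem wave_mul_neg (D : LineCalculus H) (t : ℝ) : D.wave t * D.wave (-t) = 1 := by
  rw [← wave_add, add_neg_cancel, wave_zero]

theorem inner_wave_left (D : LineCalculus H) (t : ℝ) (x y : H) :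
    inner ℂ (D.wave t x) y = inner ℂ x (D.wave (-t) y) := wave_inner_left D t x y

theorem wave_apply_comm (D : LineCalculus H) (t : ℝ) (f : Cb) (x : H) :
    D.wave t (D.apply f x) = D.apply f (D.wave t x) := (apply_wave_comm D f t x).symm

/-- Strong continuity of the unitary group. -/
theorem continuous_wave (D : LineCalculus H) (x : H) : Continuous fun t : ℝ => D.wave t x :=
  continuous_wave_apply D x

theorem continuous_wave_comp (D : LineCalculus H) {y : ℝ → H} (hy : Continuous y) :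
    Continuous fun t : ℝ => D.wave t (y t) := by
  rw [continuous_iff_continuousAt]
  intro t0
  have h1 : Tendsto (fun t => D.wave t (y t0)) (𝓝 t0) (𝓝 (D.wave t0 (y t0))) :=
    (continuous_wave D _).tendsto t0
  have h2 : Tendsto (fun t => D.wave t (y t) - D.wave t (y t0)) (𝓝 t0) (𝓝 0) := by
    rw [tendsto_zero_iff_norm_tendsto_zero]
    have h3 : Tendsto (fun t => ‖y t - y t0‖) (𝓝 t0) (𝓝 0) := by
      have := ((hy.tendsto t0).sub_const (y t0)).norm
      simpa using this
    refine h3.congr (fun t => ?_)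
    rw [← map_sub, norm_wave_apply]
  have h4 := h2.add h1
  simp only [sub_add_cancel, zero_add] at h4
  exact h4

/-- Joint version: `t ↦ U_t (x (U_{-t} ζ))` is continuous. -/
theorem continuous_flow_apply (D : LineCalculus H) (x : H →L[ℂ] H) (ζ : H) :
    Continuous fun t : ℝ => D.wave t (x (D.wave (-t) ζ)) :=
  continuous_wave_comp D (x.continuous.comp ((continuous_wave D ζ).comp continuous_neg))

/-- auxiliary quotient for the domination lemma -/
noncomputable def domQuot (g₁ g₂ : Cb) (C η : ℝ) (hC : 0 ≤ C) (hη : 0 < η)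
    (h : ∀ u, ‖g₁ u‖ ≤ C * ‖g₂ u‖) : Cb :=
  BoundedContinuousFunction.ofNormedAddCommGroup
    (fun u => g₁ u * star (g₂ u) / ((‖g₂ u‖ ^ 2 + η ^ 2 : ℝ) : ℂ))
    (by
      refine Continuous.div (by fun_prop) (by fun_prop) (fun u => ?_)
      have : 0 < ‖g₂ u‖ ^ 2 + η ^ 2 := by positivity
      exact_mod_cast this.ne')
    C
    (fun u => by
      have hpos : 0 < ‖g₂ u‖ ^ 2 + η ^ 2 := by positivity
      rw [norm_div, norm_mul, norm_star, Complex.norm_real, Real.norm_eq_abs, abs_of_pos hpos,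
        div_le_iff₀ hpos]
      calc ‖g₁ u‖ * ‖g₂ u‖ ≤ C * ‖g₂ u‖ * ‖g₂ u‖ :=
            mul_le_mul_of_nonneg_right (h u) (norm_nonneg _)
        _ = C * ‖g₂ u‖ ^ 2 := by ring
        _ ≤ C * (‖g₂ u‖ ^ 2 + η ^ 2) := by
            apply mul_le_mul_of_nonneg_left _ hC
            nlinarith [sq_nonneg η])

theorem domQuot_apply (g₁ g₂ : Cb) (C η : ℝ) (hC : 0 ≤ C) (hη : 0 < η)
    (h : ∀ u, ‖g₁ u‖ ≤ C * ‖g₂ u‖) (u : ℝ) :
    domQuot g₁ g₂ C η hC hη h u = g₁ u * star (g₂ u) / ((‖g₂ u‖ ^ 2 + η ^ 2 : ℝ) : ℂ) := rfl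

theorem norm_sub_domQuot_mul_le (g₁ g₂ : Cb) (C η : ℝ) (hC : 0 ≤ C) (hη : 0 < η)
    (h : ∀ u, ‖g₁ u‖ ≤ C * ‖g₂ u‖) :
    ‖g₁ - domQuot g₁ g₂ C η hC hη h * g₂‖ ≤ C * η := by
  rw [BoundedContinuousFunction.norm_le (by positivity)]
  intro u
  have hpos : 0 < ‖g₂ u‖ ^ 2 + η ^ 2 := by positivity
  have hne : ((‖g₂ u‖ ^ 2 + η ^ 2 : ℝ) : ℂ) ≠ 0 := by exact_mod_cast hpos.ne'
  have e : (g₁ - domQuot g₁ g₂ C η hC hη h * g₂) u =
      g₁ u * ((η ^ 2 : ℝ) : ℂ) / ((‖g₂ u‖ ^ 2 + η ^ 2 : ℝ) : ℂ) := by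
    simp only [BoundedContinuousFunction.coe_sub, BoundedContinuousFunction.coe_mul, Pi.sub_apply,
      Pi.mul_apply, domQuot_apply]
    have hs : star (g₂ u) * g₂ u = ((‖g₂ u‖ ^ 2 : ℝ) : ℂ) := by
      rw [Complex.star_def, Complex.conj_mul']; push_cast; ring
    field_simp
    rw [hs]
    push_cast; ring
  rw [e, norm_div, norm_mul, Complex.norm_real, Complex.norm_real, Real.norm_eq_abs,
    Real.norm_eq_abs, abs_of_pos hpos, abs_of_nonneg (by positivity), div_le_iff₀ hpos]
  calc ‖g₁ u‖ * η ^ 2 ≤ C * ‖g₂ u‖ * η ^ 2 :=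
        mul_le_mul_of_nonneg_right (h u) (by positivity)
    _ = C * η * (‖g₂ u‖ * η) := by ring
    _ ≤ C * η * (‖g₂ u‖ ^ 2 + η ^ 2) := by
        apply mul_le_mul_of_nonneg_left _ (by positivity)
        nlinarith [sq_nonneg (‖g₂ u‖ - η), norm_nonneg (g₂ u), sq_nonneg (‖g₂ u‖), sq_nonneg η]

/-- Domination lemma. -/
theorem apply_eq_zero_of_dominated (D : LineCalculus H) (g₁ g₂ : Cb) (C : ℝ)
    (h : ∀ u, ‖g₁ u‖ ≤ C * ‖g₂ u‖) (x : H) (hx : D.apply g₂ x = 0) : D.apply g₁ x = 0 := by
  have hC' : (0 : ℝ) ≤ max C 0 := le_max_right _ _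
  have h' : ∀ u, ‖g₁ u‖ ≤ max C 0 * ‖g₂ u‖ := fun u =>
    (h u).trans (mul_le_mul_of_nonneg_right (le_max_left _ _) (norm_nonneg _))
  have key : ∀ η : ℝ, 0 < η → ‖D.apply g₁ x‖ ≤ max C 0 * η * ‖x‖ := by
    intro η hη
    have e : D.apply g₁ x = D.apply (g₁ - domQuot g₁ g₂ _ η hC' hη h' * g₂) x := by
      rw [calc_apply_sub, calc_apply_mul, hx, map_zero, sub_zero]
    rw [e]
    exact (calc_norm_apply_vec_le D _ x).trans
      (mul_le_mul_of_nonneg_right (norm_sub_domQuot_mul_le _ _ _ _ hC' hη h') (norm_nonneg _))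
  by_contra hne
  have hpos : 0 < ‖D.apply g₁ x‖ := norm_pos_iff.mpr hne
  set A := max C 0 * ‖x‖ with hA
  have hA0 : 0 ≤ A := by positivity
  have := key (‖D.apply g₁ x‖ / (2 * (A + 1))) (by positivity)
  have h2 : max C 0 * (‖D.apply g₁ x‖ / (2 * (A + 1))) * ‖x‖ =
      ‖D.apply g₁ x‖ * (A / (2 * (A + 1))) := by rw [hA]; ring
  rw [h2] at this
  have h3 : A / (2 * (A + 1)) < 1 := by
    rw [div_lt_one (by positivity)]; linarith
  nlinarith

theorem supportedIn_apply (D : LineCalculus H) (K : Set ℝ) (ψ : Cb) (hψ : ∀ u, u ∉ K → ψ u = 0)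
    (x : H) : D.SupportedIn K (D.apply ψ x) := supportedIn_of_vanish_off D x hψ

theorem apply_eq_self (D : LineCalculus H) (K : Set ℝ) (ψ : Cb) (hψ : ∀ u ∈ K, ψ u = 1)
    (x : H) (hx : D.SupportedIn K x) : D.apply ψ x = x := supportedIn_apply_eq_self D hx hψ

/-- two functions agreeing on `K` act in the same way on vectors supported in `K` -/
theorem apply_congr_of_supportedIn (D : LineCalculus H) (K : Set ℝ) (f g : Cb)
    (hfg : ∀ u ∈ K, f u = g u) (x : H) (hx : D.SupportedIn K x) : D.apply f x = D.apply g x :=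
  supportedIn_apply_congr D hx hfg

end Crest.Agent.S0112Aux
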