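import Crest.Agent.S0112Aux.Flow

/-! # S0112 : the second-moment estimates Q1, Q2 (helper1) -/

set_option autoImplicit false

namespace Crest.Agent.S0112Aux

open Crest.OpAlg Filter MeasureTheory
open scoped Topology

variable {H : Type*} [NormedAddCommGroup H] [InnerProductSpace ℂ H] [CompleteSpace H]

theorem quad_form_est (S : ModularDatum H) (G : H →L[ℂ] H) (hG : G ∈ S.M) (φ₀ B ε₂ ε₃ : ℝ)
    (hB : ‖G‖ ≤ B) (hφ : 0 ≤ φ₀) (hGξ : ‖G S.vac - (φ₀ : ℂ) • S.vac‖ ≤ ε₂) (η : H)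
    (b : H →L[ℂ] H) (hb : b ∈ S.M.commutant) (hη : ‖η - b S.vac‖ ≤ ε₃) :
    (inner ℂ η (G η)).re ≤ φ₀ * ‖η‖ ^ 2 + ‖η‖ * ((B + φ₀) * ε₃ + ‖b‖ * ε₂) := by
  have hcomm : G (b S.vac) = b (G S.vac) := by
    have := (VonNeumannAlgebra.mem_commutant_iff.mp hb) G hG
    exact congrArg (fun L : H →L[ℂ] H => L S.vac) this
  have hdecomp : G η - (φ₀ : ℂ) • η
      = (G (η - b S.vac) - (φ₀ : ℂ) • (η - b S.vac)) + b (G S.vac - (φ₀ : ℂ) • S.vac) := by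
    rw [map_sub, map_sub, hcomm, map_smul, smul_sub]; abel
  have h1 : ‖G (η - b S.vac) - (φ₀ : ℂ) • (η - b S.vac)‖ ≤ (B + φ₀) * ε₃ := by
    calc ‖G (η - b S.vac) - (φ₀ : ℂ) • (η - b S.vac)‖
        ≤ ‖G (η - b S.vac)‖ + ‖(φ₀ : ℂ) • (η - b S.vac)‖ := norm_sub_le _ _
      _ ≤ B * ‖η - b S.vac‖ + φ₀ * ‖η - b S.vac‖ := by
          gcongr
          · exact (G.le_opNorm _).trans (by gcongr)
          · rw [norm_smul, Complex.norm_real, Real.norm_eq_abs, abs_of_nonneg hφ]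
      _ = (B + φ₀) * ‖η - b S.vac‖ := by ring
      _ ≤ (B + φ₀) * ε₃ := by
          have : 0 ≤ B := (norm_nonneg _).trans hB
          gcongr
  have h2 : ‖b (G S.vac - (φ₀ : ℂ) • S.vac)‖ ≤ ‖b‖ * ε₂ :=
    (b.le_opNorm _).trans (by gcongr)
  have h3 : ‖G η - (φ₀ : ℂ) • η‖ ≤ (B + φ₀) * ε₃ + ‖b‖ * ε₂ := by
    rw [hdecomp]; exact (norm_add_le _ _).trans (add_le_add h1 h2)
  have h4 : inner ℂ η (G η) = (φ₀ : ℂ) * inner ℂ η η + inner ℂ η (G η - (φ₀ : ℂ) • η) := by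
    rw [inner_sub_right, inner_smul_right]; ring
  have h5 : ((φ₀ : ℂ) * inner ℂ η η).re = φ₀ * ‖η‖ ^ 2 := by
    rw [inner_self_eq_norm_sq_to_K]
    have : ((φ₀ : ℂ) * ((‖η‖ : ℂ)) ^ 2) = ((φ₀ * ‖η‖ ^ 2 : ℝ) : ℂ) := by push_cast; ring
    exact (congrArg Complex.re this).trans (Complex.ofReal_re _)
  have h6 : (inner ℂ η (G η - (φ₀ : ℂ) • η)).re ≤ ‖η‖ * ((B + φ₀) * ε₃ + ‖b‖ * ε₂) := by
    calc (inner ℂ η (G η - (φ₀ : ℂ) • η)).re ≤ ‖inner ℂ η (G η - (φ₀ : ℂ) • η)‖ :=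
          Complex.re_le_norm _
      _ ≤ ‖η‖ * ‖G η - (φ₀ : ℂ) • η‖ := norm_inner_le_norm _ _
      _ ≤ _ := by gcongr
  rw [h4, Complex.add_re, h5]
  linarith

/-- shifting all the times by `t₀` does not change the quality of an average -/
theorem avg_shift (S : ModularDatum H) (n : ℕ) (w r : Fin n → ℝ) (t₀ : ℝ) (ζ : H) (c : ℂ) :
    ‖∑ i, (w i : ℂ) • S.D.wave (t₀ + r i) ζ - c • S.vac‖
      = ‖∑ i, (w i : ℂ) • S.D.wave (r i) ζ - c • S.vac‖ := by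
  have h : ∑ i, (w i : ℂ) • S.D.wave (t₀ + r i) ζ - c • S.vac
      = S.D.wave t₀ (∑ i, (w i : ℂ) • S.D.wave (r i) ζ - c • S.vac) := by
    rw [map_sub, map_sum, map_smul, wave_vac]
    congr 1
    refine Finset.sum_congr rfl fun i _ => ?_
    rw [map_smul, wave_add]; rfl
  rw [h, norm_wave_apply]

theorem sum_flow_mem (S : ModularDatum H) (n : ℕ) (w t : Fin n → ℝ) (x : H →L[ℂ] H)
    (hx : x ∈ S.M) : (∑ k, (w k : ℂ) • S.flow (t k) x) ∈ S.M := by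
  have : (∑ k, (w k : ℂ) • S.flow (t k) x) ∈ S.M.toStarSubalgebra :=
    sum_mem fun k _ => S.M.toStarSubalgebra.smul_mem (flow_mem S _ _ hx) _
  exact this

theorem norm_sum_flow_le (S : ModularDatum H) (n : ℕ) (w t : Fin n → ℝ) (hw : ∀ i, 0 ≤ w i)
    (hw1 : ∑ i, w i = 1) (x : H →L[ℂ] H) : ‖∑ k, (w k : ℂ) • S.flow (t k) x‖ ≤ ‖x‖ := by
  calc ‖∑ k, (w k : ℂ) • S.flow (t k) x‖ ≤ ∑ k, ‖(w k : ℂ) • S.flow (t k) x‖ := norm_sum_le _ _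
    _ ≤ ∑ k, w k * ‖x‖ := by
        refine Finset.sum_le_sum fun k _ => ?_
        rw [norm_smul, Complex.norm_real, Real.norm_eq_abs, abs_of_nonneg (hw k)]
        exact mul_le_mul_of_nonneg_left (norm_flow_le S _ _) (hw k)
    _ = ‖x‖ := by rw [← Finset.sum_mul, hw1, one_mul]

theorem Q2_inner (S : ModularDatum H) (a : H →L[ℂ] H) (n : ℕ) (w t : Fin n → ℝ) (η : H) :
    ∑ k, w k * ‖(S.flow (t k) (star a)) η‖ ^ 2
      = (inner ℂ η ((∑ k, (w k : ℂ) • S.flow (t k) (a * star a)) η)).re := by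
  rw [sum_apply, inner_sum, Complex.re_sum]
  refine Finset.sum_congr rfl fun k _ => ?_
  rw [smul_apply, inner_smul_right, ← star_flow, norm_star_apply_sq,
    star_flow, flow_mul, Complex.re_ofReal_mul]

theorem Q2_est (S : ModularDatum H) (a : H →L[ℂ] H) (ha : a ∈ S.M) (n : ℕ) (w t : Fin n → ℝ)
    (hw : ∀ i, 0 ≤ w i) (hw1 : ∑ i, w i = 1) (φ₂ ε₂ ε₃ : ℝ) (hφ : 0 ≤ φ₂)
    (b : H →L[ℂ] H) (hb : b ∈ S.M.commutant)
    (havg : ‖∑ k, (w k : ℂ) • S.D.wave (t k) ((a * star a) S.vac) - (φ₂ : ℂ) • S.vac‖ ≤ ε₂)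
    (hab : ‖a S.vac - b S.vac‖ ≤ ε₃) :
    ∑ k, ∑ l, w k * w l * ‖(S.flow (t k) (star a)) (S.D.wave (t l) (a S.vac))‖ ^ 2
      ≤ φ₂ * ‖a S.vac‖ ^ 2 + ‖a S.vac‖ * ((‖a * star a‖ + φ₂) * ε₃ + ‖b‖ * ε₂) := by
  set G : H →L[ℂ] H := ∑ k, (w k : ℂ) • S.flow (t k) (a * star a) with hGdef
  have hx : a * star a ∈ S.M := by
    have : a * star a ∈ S.M.toStarSubalgebra :=
      mul_mem ha (star_mem (s := S.M.toStarSubalgebra) ha)
    exact this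
  have hG : G ∈ S.M := sum_flow_mem S n w t _ hx
  have hGn : ‖G‖ ≤ ‖a * star a‖ := norm_sum_flow_le S n w t hw hw1 _
  have hGξ : ‖G S.vac - (φ₂ : ℂ) • S.vac‖ ≤ ε₂ := by
    have : G S.vac = ∑ k, (w k : ℂ) • S.D.wave (t k) ((a * star a) S.vac) := by
      rw [hGdef, sum_apply]
      refine Finset.sum_congr rfl fun k _ => ?_
      rw [smul_apply, flow_vac]
    rw [this]; exact havg
  have key : ∀ l, ∑ k, w k * ‖(S.flow (t k) (star a)) (S.D.wave (t l) (a S.vac))‖ ^ 2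
      ≤ φ₂ * ‖a S.vac‖ ^ 2 + ‖a S.vac‖ * ((‖a * star a‖ + φ₂) * ε₃ + ‖b‖ * ε₂) := by
    intro l
    rw [Q2_inner]
    have hbl : S.flow (t l) b ∈ S.M.commutant := commutant_flow_mem S _ _ hb
    have hη : ‖S.D.wave (t l) (a S.vac) - (S.flow (t l) b) S.vac‖ ≤ ε₃ := by
      rw [flow_vac, ← map_sub, norm_wave_apply]; exact hab
    have h := quad_form_est S G hG φ₂ ‖a * star a‖ ε₂ ε₃ hGn hφ hGξ
      (S.D.wave (t l) (a S.vac)) (S.flow (t l) b) hbl hη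
    rw [norm_wave_apply] at h
    have hε₂ : 0 ≤ ε₂ := (norm_nonneg _).trans havg
    have hbn : ‖S.flow (t l) b‖ * ε₂ ≤ ‖b‖ * ε₂ :=
      mul_le_mul_of_nonneg_right (norm_flow_le S _ _) hε₂
    have : ‖a S.vac‖ * ((‖a * star a‖ + φ₂) * ε₃ + ‖S.flow (t l) b‖ * ε₂)
        ≤ ‖a S.vac‖ * ((‖a * star a‖ + φ₂) * ε₃ + ‖b‖ * ε₂) := by gcongr
    linarith
  rw [Finset.sum_comm]
  calc ∑ l, ∑ k, w k * w l * ‖(S.flow (t k) (star a)) (S.D.wave (t l) (a S.vac))‖ ^ 2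
      = ∑ l, w l * ∑ k, w k * ‖(S.flow (t k) (star a)) (S.D.wave (t l) (a S.vac))‖ ^ 2 := by
        refine Finset.sum_congr rfl fun l _ => ?_
        rw [Finset.mul_sum]
        refine Finset.sum_congr rfl fun k _ => ?_
        ring
    _ ≤ ∑ l, w l * (φ₂ * ‖a S.vac‖ ^ 2 + ‖a S.vac‖ * ((‖a * star a‖ + φ₂) * ε₃ + ‖b‖ * ε₂)) :=
        Finset.sum_le_sum fun l _ => mul_le_mul_of_nonneg_left (key l) (hw l)
    _ = _ := by rw [← Finset.sum_mul, hw1, one_mul]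

end Crest.Agent.S0112Aux
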