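import Crest.Agent.S0112Aux.Vac

/-! # S0112 : algebra of the modular flow (helper1) -/

set_option autoImplicit false

namespace Crest.Agent.S0112Aux

open Crest.OpAlg Filter MeasureTheory
open scoped Topology

variable {H : Type*} [NormedAddCommGroup H] [InnerProductSpace ℂ H] [CompleteSpace H]

theorem flow_def (S : ModularDatum H) (t : ℝ) (a : H →L[ℂ] H) :
    S.flow t a = S.D.wave t * a * S.D.wave (-t) := rfl

theorem flow_mem (S : ModularDatum H) (t : ℝ) (a : H →L[ℂ] H) (ha : a ∈ S.M) :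
    S.flow t a ∈ S.M := S.flow_mem t a ha

theorem star_flow (S : ModularDatum H) (t : ℝ) (a : H →L[ℂ] H) :
    star (S.flow t a) = S.flow t (star a) := by
  rw [flow_def, flow_def, star_mul, star_mul, star_wave, star_wave, neg_neg, mul_assoc]

theorem flow_mul (S : ModularDatum H) (t : ℝ) (a b : H →L[ℂ] H) :
    S.flow t a * S.flow t b = S.flow t (a * b) := by
  rw [flow_def, flow_def, flow_def]
  calc S.D.wave t * a * S.D.wave (-t) * (S.D.wave t * b * S.D.wave (-t))
      = S.D.wave t * a * (S.D.wave (-t) * S.D.wave t) * b * S.D.wave (-t) := by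
        simp only [mul_assoc]
    _ = S.D.wave t * (a * b) * S.D.wave (-t) := by
        rw [wave_neg_mul, mul_one]; simp only [mul_assoc]

theorem flow_vac (S : ModularDatum H) (t : ℝ) (a : H →L[ℂ] H) :
    (S.flow t a) S.vac = S.D.wave t (a S.vac) := flow_apply_vac S t a

theorem norm_flow_le (S : ModularDatum H) (t : ℝ) (a : H →L[ℂ] H) : ‖S.flow t a‖ ≤ ‖a‖ := by
  rw [flow_def]
  calc ‖S.D.wave t * a * S.D.wave (-t)‖ ≤ ‖S.D.wave t * a‖ * ‖S.D.wave (-t)‖ := norm_mul_le _ _
    _ ≤ (‖S.D.wave t‖ * ‖a‖) * ‖S.D.wave (-t)‖ := by gcongr; exact norm_mul_le _ _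
    _ ≤ (1 * ‖a‖) * 1 := by
        gcongr
        · exact norm_wave_le _ _
        · exact norm_wave_le _ _
    _ = ‖a‖ := by ring

/-- `‖c⋆ η‖² = re ⟪η, c c⋆ η⟫` -/
theorem norm_star_apply_sq (c : H →L[ℂ] H) (η : H) :
    ‖(star c) η‖ ^ 2 = (inner ℂ η ((c * star c) η)).re := by
  have h : inner ℂ η ((c * star c) η) = inner ℂ ((star c) η) ((star c) η) := by
    rw [mul_apply_eq_comp, ContinuousLinearMap.star_eq_adjoint,
      ContinuousLinearMap.adjoint_inner_left]
  rw [h, inner_self_eq_norm_sq_to_K]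
  norm_cast

end Crest.Agent.S0112Aux
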