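import Mathlib

/-! # S0112 / WP-B : a band-pass kernel

Pure Mathlib Fourier analysis, independent of the rest.
Take a smooth bump `Ψ₀ : ℝ → ℝ` (`ContDiffBump (0:ℝ)` with `rIn = 1`, `rOut = 2`), view it as a
Schwartz function (`HasCompactSupport.toSchwartzMap`), let `k` be a rescaled Fourier transform of it
(Schwartz, hence continuous and integrable) and use Fourier inversion
(`Continuous.fourierInv_fourier_eq`, or the `FourierPair` instance on `SchwartzMap`).
Mathlib's normalisation is `𝓕 f w = ∫ v, exp (-2π i v w) f v`, so a change of variables `τ = 2π v`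
(or `-2π v`) is needed to reach the normalisation below. -/

set_option autoImplicit false

namespace Crest.Agent.S0112Aux

open MeasureTheory
open scoped FourierTransform SchwartzMap

theorem exists_kernel :
    ∃ (k : ℝ → ℂ) (Ψ : BoundedContinuousFunction ℝ ℂ), Continuous k ∧ Integrable k ∧
      (∀ u : ℝ, ∫ τ : ℝ, k τ * Complex.exp (Complex.I * ((τ * u : ℝ) : ℂ)) = Ψ u) ∧
      (∀ u : ℝ, |u| ≤ 1 → Ψ u = 1) ∧ (∀ u : ℝ, 2 ≤ |u| → Ψ u = 0) := by
  classical
  -- the bump
  let b : ContDiffBump (0 : ℝ) := ⟨1, 2, one_pos, one_lt_two⟩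
  let f₀ : ℝ → ℂ := fun x => ((b x : ℝ) : ℂ)
  have hf₀s : ContDiff ℝ ((⊤ : ℕ∞) : WithTop ℕ∞) f₀ := Complex.ofRealCLM.contDiff.comp b.contDiff
  have hf₀c : HasCompactSupport f₀ := by
    have := b.hasCompactSupport
    exact this.comp_left (g := fun r : ℝ => (r : ℂ)) (by simp)
  let f : 𝓢(ℝ, ℂ) := hf₀c.toSchwartzMap hf₀s
  have hf_apply : ∀ x, f x = ((b x : ℝ) : ℂ) := fun x => rfl
  let g : 𝓢(ℝ, ℂ) := 𝓕 f
  have hinv : ∀ u : ℝ, ∫ v : ℝ, Complex.exp ((↑(2 * Real.pi * (v * u)) * Complex.I)) * g v = f u := by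
    intro u
    have h1 : 𝓕⁻ g = f := FourierTransform.fourierInv_fourier_eq f
    have h2 : (𝓕⁻ g) u = 𝓕⁻ (g : ℝ → ℂ) u := by
      rw [SchwartzMap.fourierInv_coe]
    rw [← h1, h2, Real.fourierInv_eq']
    simp [mul_comm]
  have hpi : (0 : ℝ) < 2 * Real.pi := by positivity
  let k : ℝ → ℂ := fun τ => ((2 * Real.pi)⁻¹ : ℝ) * g (τ / (2 * Real.pi))
  have hbdd : ∀ x y : ℝ, dist (f x) (f y) ≤ 2 := by
    intro x y
    have h1 : ‖f x‖ ≤ 1 := by
      rw [hf_apply, Complex.norm_real, Real.norm_eq_abs, abs_of_nonneg b.nonneg]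
      exact b.le_one
    have h2 : ‖f y‖ ≤ 1 := by
      rw [hf_apply, Complex.norm_real, Real.norm_eq_abs, abs_of_nonneg b.nonneg]
      exact b.le_one
    calc dist (f x) (f y) ≤ ‖f x‖ + ‖f y‖ := by
          rw [dist_eq_norm]; exact norm_sub_le _ _
      _ ≤ 2 := by linarith
  let Ψ : BoundedContinuousFunction ℝ ℂ :=
    BoundedContinuousFunction.mkOfBound ⟨fun x => f x, f.continuous⟩ 2 hbdd
  have hΨ : ∀ u, Ψ u = f u := fun u => rfl
  refine ⟨k, Ψ, ?_, ?_, ?_, ?_, ?_⟩
  · exact continuous_const.mul (g.continuous.comp (continuous_id.div_const _))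
  · have : Integrable (fun τ : ℝ => g (τ / (2 * Real.pi))) :=
      (g.integrable).comp_div hpi.ne'
    exact this.const_mul _
  · intro u
    rw [hΨ, ← hinv u]
    have := Measure.integral_comp_div
      (fun v : ℝ => Complex.exp ((↑(2 * Real.pi * (v * u)) * Complex.I)) * g v) (2 * Real.pi)
    rw [abs_of_pos hpi] at this
    have h3 : ∫ v : ℝ, Complex.exp ((↑(2 * Real.pi * (v * u)) * Complex.I)) * g v
        = ((2 * Real.pi)⁻¹ : ℝ) • ∫ x : ℝ, Complex.exp ((↑(2 * Real.pi * (x / (2 * Real.pi) * u)) * Complex.I)) * g (x / (2 * Real.pi)) := by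
      rw [this, smul_smul, inv_mul_cancel₀ hpi.ne', one_smul]
    rw [h3, ← integral_smul]
    refine integral_congr_ae (Filter.Eventually.of_forall fun τ => ?_)
    have h4 : 2 * Real.pi * (τ / (2 * Real.pi) * u) = τ * u := by
      field_simp
    simp only [k, h4, Complex.real_smul]
    ring_nf
  · intro u hu
    rw [hΨ, hf_apply]
    have : b u = 1 := by
      apply b.one_of_mem_closedBall
      simpa [Metric.mem_closedBall, Real.dist_eq] using hu
    simp [this]
  · intro u hu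
    rw [hΨ, hf_apply]
    have : b u = 0 := by
      apply b.zero_of_le_dist
      simpa [Real.dist_eq] using hu
    simp [this]

end Crest.Agent.S0112Aux
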