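import Mathlib

set_option autoImplicit false

namespace Crest.Agent.S0112Aux

open Finset

variable {I : Type*} [Fintype I] [DecidableEq I]

/-- real sign -/
def sgr (ε : I → ℤˣ) (i : I) : ℝ := (((ε i : ℤˣ) : ℤ) : ℝ)

/-- The sign `ε i` as a complex number. -/
def sg (ε : I → ℤˣ) (i : I) : ℂ := (((ε i : ℤˣ) : ℤ) : ℂ)

lemma sg_eq (ε : I → ℤˣ) (i : I) : sg ε i = ((sgr ε i : ℝ) : ℂ) := by
  simp [sg, sgr]

lemma sgr_mul_self (ε : I → ℤˣ) (i : I) : sgr ε i * sgr ε i = 1 := by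
  unfold sgr
  rcases Int.units_eq_one_or (ε i) with h | h <;> simp [h]

/-- flip coordinate `a` -/
def flip (a : I) : (I → ℤˣ) ≃ (I → ℤˣ) where
  toFun ε := Function.update ε a (-ε a)
  invFun ε := Function.update ε a (-ε a)
  left_inv ε := by
    funext i
    by_cases h : i = a
    · subst h; simp
    · simp [Function.update_of_ne h]
  right_inv ε := by
    funext i
    by_cases h : i = a
    · subst h; simp
    · simp [Function.update_of_ne h]

lemma sgr_flip_self (a : I) (ε : I → ℤˣ) : sgr (flip a ε) a = - sgr ε a := by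
  simp [sgr, flip]

lemma sgr_flip_ne (a : I) (ε : I → ℤˣ) {i : I} (h : i ≠ a) : sgr (flip a ε) i = sgr ε i := by
  simp [sgr, flip, Function.update_of_ne h]

lemma sum_eq_zero_of_flip (a : I) (F : (I → ℤˣ) → ℝ) (h : ∀ ε, F (flip a ε) = - F ε) :
    ∑ ε, F ε = 0 := by
  have h1 : ∑ ε, F (flip a ε) = ∑ ε, F ε := Equiv.sum_comp (flip a) F
  have h2 : ∑ ε, F (flip a ε) = - ∑ ε, F ε := by
    rw [← Finset.sum_neg_distrib]
    exact Finset.sum_congr rfl (fun ε _ => h ε)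
  linarith

lemma card_signs : (Fintype.card (I → ℤˣ) : ℝ) = (2:ℝ) ^ (Fintype.card I) := by
  simp [Fintype.card_pi]

lemma sum_sgr2 (i j : I) :
    ∑ ε : I → ℤˣ, sgr ε i * sgr ε j = if i = j then (2:ℝ) ^ (Fintype.card I) else 0 := by
  split_ifs with h
  · subst h
    simp only [sgr_mul_self]
    rw [← card_signs]
    simp
  · apply sum_eq_zero_of_flip i
    intro ε
    rw [sgr_flip_self, sgr_flip_ne i ε (Ne.symm h)]
    ring

lemma sum_sgr4 (i j k l : I) :
    ∑ ε : I → ℤˣ, sgr ε i * sgr ε j * (sgr ε k * sgr ε l) =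
      if i = j then (if k = l then (2:ℝ) ^ (Fintype.card I) else 0)
      else if i = k then (if j = l then (2:ℝ) ^ (Fintype.card I) else 0)
      else if i = l then (if j = k then (2:ℝ) ^ (Fintype.card I) else 0) else 0 := by
  by_cases hij : i = j
  · subst hij
    simp only [sgr_mul_self, one_mul, if_true]
    exact sum_sgr2 k l
  rw [if_neg hij]
  by_cases hik : i = k
  · subst hik
    rw [if_pos rfl, ← sum_sgr2 j l]
    apply Finset.sum_congr rfl
    intro ε _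
    have := sgr_mul_self ε i
    linear_combination (sgr ε j * sgr ε l) * this
  rw [if_neg hik]
  by_cases hil : i = l
  · subst hil
    rw [if_pos rfl, ← sum_sgr2 j k]
    apply Finset.sum_congr rfl
    intro ε _
    have := sgr_mul_self ε i
    linear_combination (sgr ε j * sgr ε k) * this
  rw [if_neg hil]
  apply sum_eq_zero_of_flip i
  intro ε
  rw [sgr_flip_self, sgr_flip_ne i ε (Ne.symm hij), sgr_flip_ne i ε (Ne.symm hik),
    sgr_flip_ne i ε (Ne.symm hil)]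
  ring

variable {H : Type*} [NormedAddCommGroup H] [InnerProductSpace ℂ H]

omit [Fintype I] [DecidableEq I] in
/-- Expansion of the square norm of a real-linear combination. -/
lemma norm_sq_sum_smul {P : Type*} [Fintype P] (c : P → ℝ) (y : P → H) :
    ‖∑ p, ((c p : ℝ) : ℂ) • y p‖ ^ 2 =
      ∑ p, ∑ q, c p * c q * RCLike.re (inner ℂ (y p) (y q)) := by
  rw [@norm_sq_eq_re_inner ℂ, sum_inner, map_sum]
  apply Finset.sum_congr rfl
  intro p _
  rw [inner_sum, map_sum]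
  apply Finset.sum_congr rfl
  intro q _
  rw [inner_smul_left, inner_smul_right]
  simp
  ring

theorem khintchine_two (x : I → H) :
    ∑ ε : I → ℤˣ, ‖∑ i, sg ε i • x i‖ ^ 2 = (2:ℝ) ^ (Fintype.card I) * ∑ i, ‖x i‖ ^ 2 := by
  simp only [sg_eq, norm_sq_sum_smul]
  rw [Finset.sum_comm, Finset.mul_sum]
  apply Finset.sum_congr rfl
  intro i _
  rw [Finset.sum_comm]
  simp only [← Finset.sum_mul, sum_sgr2]
  simp [@norm_sq_eq_re_inner ℂ]

omit [Fintype I] [DecidableEq I] in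
lemma re_inner_le_half (a b : H) :
    RCLike.re (inner ℂ a b) ≤ (‖a‖ ^ 2 + ‖b‖ ^ 2) / 2 := by
  have h1 : RCLike.re (inner ℂ a b) ≤ ‖a‖ * ‖b‖ := re_inner_le_norm a b
  nlinarith [sq_nonneg (‖a‖ - ‖b‖)]

theorem khintchine_four (y : I → I → H) :
    ∑ ε : I → ℤˣ, ‖∑ i, ∑ j, (sg ε i * sg ε j) • y i j‖ ^ 2 ≤
      (2:ℝ) ^ (Fintype.card I) * (‖∑ i, y i i‖ ^ 2 + 2 * ∑ i, ∑ j, ‖y i j‖ ^ 2) := by
  set N : ℝ := (2:ℝ) ^ (Fintype.card I) with hN
  have hNpos : 0 ≤ N := by positivity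
  -- expansion
  have hexp : ∀ ε : I → ℤˣ, ‖∑ i, ∑ j, (sg ε i * sg ε j) • y i j‖ ^ 2 =
      ∑ i, ∑ j, ∑ k, ∑ l, sgr ε i * sgr ε j * (sgr ε k * sgr ε l) *
        RCLike.re (inner ℂ (y i j) (y k l)) := by
    intro ε
    have := norm_sq_sum_smul (P := I × I) (fun p => sgr ε p.1 * sgr ε p.2) (fun p => y p.1 p.2)
    simp only [Fintype.sum_prod_type] at this
    rw [← this]
    simp [sg_eq]
  simp only [hexp]
  -- swap sums
  have hswap : ∑ ε : I → ℤˣ, ∑ i, ∑ j, ∑ k, ∑ l, sgr ε i * sgr ε j * (sgr ε k * sgr ε l) *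
        RCLike.re (inner ℂ (y i j) (y k l)) =
      ∑ i, ∑ j, ∑ k, ∑ l, (∑ ε : I → ℤˣ, sgr ε i * sgr ε j * (sgr ε k * sgr ε l)) *
        RCLike.re (inner ℂ (y i j) (y k l)) := by
    rw [Finset.sum_comm]
    apply Finset.sum_congr rfl; intro i _
    rw [Finset.sum_comm]
    apply Finset.sum_congr rfl; intro j _
    rw [Finset.sum_comm]
    apply Finset.sum_congr rfl; intro k _
    rw [Finset.sum_comm]
    apply Finset.sum_congr rfl; intro l _
    rw [Finset.sum_mul]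
  rw [hswap]
  -- pointwise bound
  have hpt : ∀ i j k l : I, (∑ ε : I → ℤˣ, sgr ε i * sgr ε j * (sgr ε k * sgr ε l)) *
        RCLike.re (inner ℂ (y i j) (y k l)) ≤
      N * ((if i = j then (if k = l then RCLike.re (inner ℂ (y i j) (y k l)) else 0) else 0) +
        (if i = k then (if j = l then (‖y i j‖ ^ 2 + ‖y k l‖ ^ 2) / 2 else 0) else 0) +
        (if i = l then (if j = k then (‖y i j‖ ^ 2 + ‖y k l‖ ^ 2) / 2 else 0) else 0)) := by
    intro i j k l
    rw [sum_sgr4, ← hN]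
    have hG := re_inner_le_half (y i j) (y k l)
    have hpos : 0 ≤ (‖y i j‖ ^ 2 + ‖y k l‖ ^ 2) / 2 := by positivity
    set G := RCLike.re (inner ℂ (y i j) (y k l))
    set Q := (‖y i j‖ ^ 2 + ‖y k l‖ ^ 2) / 2
    split_ifs <;> nlinarith
  refine le_trans (Finset.sum_le_sum fun i _ => Finset.sum_le_sum fun j _ =>
    Finset.sum_le_sum fun k _ => Finset.sum_le_sum fun l _ => hpt i j k l) ?_
  simp only [← Finset.mul_sum, Finset.sum_add_distrib]
  apply le_of_eq
  congr 1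
  have h1 : ∑ i, ∑ j, ∑ k, ∑ l, (if i = j then (if k = l then
      RCLike.re (inner ℂ (y i j) (y k l)) else 0) else 0) = ‖∑ i, y i i‖ ^ 2 := by
    rw [@norm_sq_eq_re_inner ℂ, sum_inner, map_sum]
    apply Finset.sum_congr rfl; intro i _
    rw [inner_sum, map_sum]
    simp
  have h2 : ∑ i, ∑ j, ∑ k, ∑ l, (if i = k then (if j = l then
      (‖y i j‖ ^ 2 + ‖y k l‖ ^ 2) / 2 else 0) else 0) = ∑ i, ∑ j, ‖y i j‖ ^ 2 := by
    apply Finset.sum_congr rfl; intro i _
    apply Finset.sum_congr rfl; intro j _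
    simp
  have h3 : ∑ i, ∑ j, ∑ k, ∑ l, (if i = l then (if j = k then
      (‖y i j‖ ^ 2 + ‖y k l‖ ^ 2) / 2 else 0) else 0) = ∑ i, ∑ j, ‖y i j‖ ^ 2 := by
    have e1 : ∀ i j : I, ∑ k, ∑ l, (if i = l then (if j = k then
      (‖y i j‖ ^ 2 + ‖y k l‖ ^ 2) / 2 else 0) else 0) = (‖y i j‖ ^ 2 + ‖y j i‖ ^ 2) / 2 := by
      intro i j
      simp
    simp only [e1]
    simp only [add_div, Finset.sum_add_distrib]
    have e2 : ∑ i, ∑ j, ‖y j i‖ ^ 2 / 2 = ∑ i, ∑ j, ‖y i j‖ ^ 2 / 2 := Finset.sum_comm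
    rw [e2, ← Finset.sum_add_distrib]
    apply Finset.sum_congr rfl; intro i _
    rw [← Finset.sum_add_distrib]
    apply Finset.sum_congr rfl; intro j _
    ring
  rw [h1, h2, h3]
  ring

omit [Fintype I] [DecidableEq I] in
lemma star_sg (ε : I → ℤˣ) (i : I) : star (sg ε i) = sg ε i := by
  simp [sg]

omit [DecidableEq I] in
lemma star_sum_mul_sum_apply [CompleteSpace H] (w : I → H →L[ℂ] H) (ε : I → ℤˣ) (ξ : H) :
    (star (∑ i, sg ε i • w i) * (∑ i, sg ε i • w i)) ξ =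
      ∑ i, ∑ j, (sg ε i * sg ε j) • (star (w i) * w j) ξ := by
  rw [star_sum, Finset.sum_mul_sum]
  simp only [star_smul, star_sg, smul_mul_smul_comm, ContinuousLinearMap.sum_apply,
    ContinuousLinearMap.smul_apply]

/-- Noncommutative Khintchine inequality for `p = 4`, in the form used for S0112. -/
theorem khintchine_op [CompleteSpace H] (w : I → H →L[ℂ] H) (ξ : H) :
    ∑ ε : I → ℤˣ, ‖(star (∑ i, sg ε i • w i) * (∑ i, sg ε i • w i)) ξ‖ ^ 2 ≤
      (2:ℝ) ^ (Fintype.card I) * (‖(∑ i, star (w i) * w i) ξ‖ ^ 2 +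
        2 * ∑ i, ∑ j, ‖(star (w i) * w j) ξ‖ ^ 2) := by
  simp only [star_sum_mul_sum_apply]
  have := khintchine_four (fun i j => (star (w i) * w j) ξ)
  simpa only [ContinuousLinearMap.sum_apply] using this

end Crest.Agent.S0112Aux
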