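import Mathlib
import Crest.Agent.S0112Aux.Khintchine

/-! # S0112 / WP-F : random signs (pure Hilbert space + finite combinatorics) -/

set_option autoImplicit false

namespace Crest.Agent.S0112Aux

/-- Average over `e ∈ {±1}^n`:
`E ‖∑ e_i y_i‖² = ∑ ‖y_i‖²` and
`E ‖∑_{k,l} e_k e_l x_{kl}‖² = ‖∑_k x_{kk}‖² + ∑_{k<l} ‖x_{kl} + x_{lk}‖² ≤ ‖∑_k x_{kk}‖² + 2 ∑_{k,l} ‖x_{kl}‖²`
(the functions `1` and `e_k e_l`, `k<l`, are orthonormal; equivalently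
`E[e_i e_j e_k e_l] = [i=j,k=l] + [i=k,j=l] + [i=l,j=k] - 2 [i=j=k=l]`).
Some `e` is at least as good as the average. -/
theorem exists_signs {E F : Type*} [NormedAddCommGroup E] [InnerProductSpace ℂ E]
    [NormedAddCommGroup F] [InnerProductSpace ℂ F] (n : ℕ) (y : Fin n → E) (x : Fin n → Fin n → F)
    (lam : ℝ) (hlam : 0 ≤ lam) :
    ∃ e : Fin n → ℝ, (∀ i, e i = 1 ∨ e i = -1) ∧
      ∑ i, ‖y i‖ ^ 2 - lam * (‖∑ k, x k k‖ ^ 2 + 2 * ∑ k, ∑ l, ‖x k l‖ ^ 2) ≤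
        ‖∑ i, (e i : ℂ) • y i‖ ^ 2 - lam * ‖∑ k, ∑ l, ((e k * e l : ℝ) : ℂ) • x k l‖ ^ 2 := by
  set L : ℝ := ∑ i, ‖y i‖ ^ 2 - lam * (‖∑ k, x k k‖ ^ 2 + 2 * ∑ k, ∑ l, ‖x k l‖ ^ 2) with hL
  set N : ℝ := (2:ℝ) ^ (Fintype.card (Fin n)) with hN
  have h2 := khintchine_two y
  have h4 := khintchine_four x
  have hsum : ∑ _ε : Fin n → ℤˣ, L ≤ ∑ ε : Fin n → ℤˣ,
      (‖∑ i, sg ε i • y i‖ ^ 2 - lam * ‖∑ k, ∑ l, (sg ε k * sg ε l) • x k l‖ ^ 2) := by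
    have e1 : ∑ _ε : Fin n → ℤˣ, L = N * L := by
      rw [Finset.sum_const, Finset.card_univ, nsmul_eq_mul, card_signs]
    have e2 : ∑ ε : Fin n → ℤˣ,
      (‖∑ i, sg ε i • y i‖ ^ 2 - lam * ‖∑ k, ∑ l, (sg ε k * sg ε l) • x k l‖ ^ 2) =
        N * ∑ i, ‖y i‖ ^ 2 - lam * ∑ ε : Fin n → ℤˣ, ‖∑ k, ∑ l, (sg ε k * sg ε l) • x k l‖ ^ 2 := by
      rw [Finset.sum_sub_distrib, ← Finset.mul_sum, h2]
    rw [e1, e2]
    have := mul_le_mul_of_nonneg_left h4 hlam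
    rw [← hN] at this
    rw [hL]
    nlinarith
  obtain ⟨ε, -, hε⟩ := Finset.exists_le_of_sum_le (Finset.univ_nonempty) hsum
  refine ⟨fun i => sgr ε i, ?_, ?_⟩
  · intro i
    unfold sgr
    rcases Int.units_eq_one_or (ε i) with h | h <;> simp [h]
  · simpa only [sg_eq, Complex.ofReal_mul] using hε

end Crest.Agent.S0112Aux
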