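import Crest.Agent.S0112Aux.Est
import Crest.Agent.S0112Aux.Signs

/-! # S0112 : applying the random-sign lemma to `v_i = √w_i σ_{t_i}(a)` (helper1) -/

set_option autoImplicit false

namespace Crest.Agent.S0112Aux

open Crest.OpAlg Filter MeasureTheory
open scoped Topology

variable {H : Type*} [NormedAddCommGroup H] [InnerProductSpace ℂ H] [CompleteSpace H]

theorem signs_step (S : ModularDatum H) (T P : H →L[ℂ] H) (a : H →L[ℂ] H) (ha : a ∈ S.M)
    (n : ℕ) (w t : Fin n → ℝ) (hw : ∀ i, 0 ≤ w i) (lam : ℝ) (hlam : 0 ≤ lam) :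
    ∃ v : H →L[ℂ] H, v ∈ S.M ∧
      ∑ i, w i * ‖T (P (S.D.wave (t i) (a S.vac)))‖ ^ 2
        - lam * (‖∑ k, (w k : ℂ) • S.D.wave (t k) ((star a * a) S.vac)‖ ^ 2
          + 2 * ∑ k, ∑ l, w k * w l *
              ‖(S.flow (t k) (star a)) (S.D.wave (t l) (a S.vac))‖ ^ 2)
      ≤ ‖T (P (v S.vac))‖ ^ 2 - lam * ‖(star v * v) S.vac‖ ^ 2 := by
  set q : Fin n → ℝ := fun i => Real.sqrt (w i) with hq
  have hqq : ∀ i, q i * q i = w i := fun i => Real.mul_self_sqrt (hw i)
  have hq0 : ∀ i, 0 ≤ q i := fun i => Real.sqrt_nonneg _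
  set vv : Fin n → (H →L[ℂ] H) := fun i => (q i : ℂ) • S.flow (t i) a with hvv
  have hvvξ : ∀ i, vv i S.vac = (q i : ℂ) • S.D.wave (t i) (a S.vac) := by
    intro i
    rw [hvv]
    simp only [smul_apply, flow_vac]
  have hstar : ∀ k l, star (vv k) * vv l
      = ((q k * q l : ℝ) : ℂ) • (S.flow (t k) (star a) * S.flow (t l) a) := by
    intro k l
    rw [hvv]
    simp only [star_smul, star_flow, smul_mul_assoc, mul_smul_comm, smul_smul]
    congr 1
    simp [mul_comm]
  obtain ⟨e, he, hmain⟩ := exists_signs n (fun i => T (P (vv i S.vac)))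
    (fun k l => (star (vv k) * vv l) S.vac) lam hlam
  refine ⟨∑ i, (e i : ℂ) • vv i, ?_, ?_⟩
  · have : (∑ i, (e i : ℂ) • vv i) ∈ S.M.toStarSubalgebra :=
      sum_mem fun i _ => S.M.toStarSubalgebra.smul_mem
        (S.M.toStarSubalgebra.smul_mem (flow_mem S _ _ ha) _) _
    exact this
  · have hy : ∀ i, ‖T (P (vv i S.vac))‖ ^ 2 = w i * ‖T (P (S.D.wave (t i) (a S.vac)))‖ ^ 2 := by
      intro i
      rw [hvvξ, map_smul, map_smul, norm_smul, Complex.norm_real, Real.norm_eq_abs,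
        abs_of_nonneg (hq0 i), mul_pow, sq (q i), hqq]
    have hxkk : ∀ k, (star (vv k) * vv k) S.vac
        = (w k : ℂ) • S.D.wave (t k) ((star a * a) S.vac) := by
      intro k
      rw [hstar, hqq, flow_mul, smul_apply, flow_vac]
    have hxkl : ∀ k l, ‖(star (vv k) * vv l) S.vac‖ ^ 2
        = w k * w l * ‖(S.flow (t k) (star a)) (S.D.wave (t l) (a S.vac))‖ ^ 2 := by
      intro k l
      rw [hstar, smul_apply, mul_apply_eq_comp, flow_vac, norm_smul, Complex.norm_real,
        Real.norm_eq_abs, abs_of_nonneg (mul_nonneg (hq0 k) (hq0 l)), mul_pow]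
      have : (q k * q l) ^ 2 = w k * w l := by
        calc (q k * q l) ^ 2 = (q k * q k) * (q l * q l) := by ring
          _ = w k * w l := by rw [hqq, hqq]
      rw [this]
    have hTv : T (P ((∑ i, (e i : ℂ) • vv i) S.vac)) = ∑ i, (e i : ℂ) • T (P (vv i S.vac)) := by
      rw [sum_apply, map_sum, map_sum]
      refine Finset.sum_congr rfl fun i _ => ?_
      rw [smul_apply, map_smul, map_smul]
    have hvv2 : (star (∑ i, (e i : ℂ) • vv i) * (∑ i, (e i : ℂ) • vv i)) S.vac
        = ∑ k, ∑ l, ((e k * e l : ℝ) : ℂ) • (star (vv k) * vv l) S.vac := by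
      rw [star_sum, Finset.sum_mul, sum_apply]
      refine Finset.sum_congr rfl fun k _ => ?_
      rw [Finset.mul_sum, sum_apply]
      refine Finset.sum_congr rfl fun l _ => ?_
      rw [star_smul, smul_mul_assoc, mul_smul_comm, smul_smul, smul_apply]
      congr 1
      simp
    rw [hTv, hvv2]
    simp only [hy, hxkk, hxkl] at hmain
    exact hmain

end Crest.Agent.S0112Aux
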