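import Crest.Agent.S0112Aux.Calc

/-! # S0112 / WP-C1 : strong integrals `∫ κ(τ) U_{rτ} x U_{-rτ} ζ dτ` and `∫ κ(τ) U_{rτ} ζ dτ = ψ(D) ζ` -/

set_option autoImplicit false

namespace Crest.Agent.S0112Aux

open Crest.OpAlg Filter MeasureTheory
open scoped Topology

variable {H : Type*} [NormedAddCommGroup H] [InnerProductSpace ℂ H] [CompleteSpace H]

local notation "Cb" => BoundedContinuousFunction ℝ ℂ

namespace SmoothC1

theorem integrable_flow (D : LineCalculus H) (κ : ℝ → ℂ) (hκc : Continuous κ) (hκ : Integrable κ)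
    (r : ℝ) (x : H →L[ℂ] H) (ζ : H) :
    Integrable fun τ : ℝ => κ τ • D.wave (r * τ) (x (D.wave (-(r * τ)) ζ)) := by
  have hc : Continuous fun τ : ℝ => κ τ • D.wave (r * τ) (x (D.wave (-(r * τ)) ζ)) := by
    refine hκc.smul ?_
    exact (continuous_flow_apply D x ζ).comp (continuous_const.mul continuous_id)
  refine Integrable.mono' (g := fun τ => ‖κ τ‖ * (‖x‖ * ‖ζ‖)) (hκ.norm.mul_const _)
    hc.aestronglyMeasurable (Eventually.of_forall fun τ => ?_)
  rw [norm_smul, norm_wave_apply]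
  refine mul_le_mul_of_nonneg_left ?_ (norm_nonneg _)
  calc ‖x (D.wave (-(r * τ)) ζ)‖ ≤ ‖x‖ * ‖D.wave (-(r * τ)) ζ‖ := x.le_opNorm _
    _ = ‖x‖ * ‖ζ‖ := by rw [norm_wave_apply]

theorem norm_flow_le (D : LineCalculus H) (κ : ℝ → ℂ)
    (r : ℝ) (x : H →L[ℂ] H) (ζ : H) (τ : ℝ) :
    ‖κ τ • D.wave (r * τ) (x (D.wave (-(r * τ)) ζ))‖ ≤ ‖κ τ‖ * (‖x‖ * ‖ζ‖) := by
  rw [norm_smul, norm_wave_apply]
  refine mul_le_mul_of_nonneg_left ?_ (norm_nonneg _)
  calc ‖x (D.wave (-(r * τ)) ζ)‖ ≤ ‖x‖ * ‖D.wave (-(r * τ)) ζ‖ := x.le_opNorm _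
    _ = ‖x‖ * ‖ζ‖ := by rw [norm_wave_apply]

end SmoothC1

open SmoothC1

/-- The strong integral defines a bounded operator. -/
theorem exists_smooth' (D : LineCalculus H) (κ : ℝ → ℂ) (hκc : Continuous κ) (hκ : Integrable κ)
    (r : ℝ) (x : H →L[ℂ] H) :
    ∃ y : H →L[ℂ] H,
      (∀ ζ : H, y ζ = ∫ τ : ℝ, κ τ • D.wave (r * τ) (x (D.wave (-(r * τ)) ζ))) ∧
      ‖y‖ ≤ (∫ τ : ℝ, ‖κ τ‖) * ‖x‖ := by
  let L : H →ₗ[ℂ] H :=
    { toFun := fun ζ => ∫ τ : ℝ, κ τ • D.wave (r * τ) (x (D.wave (-(r * τ)) ζ))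
      map_add' := fun a b => by
        rw [← integral_add (integrable_flow D κ hκc hκ r x a) (integrable_flow D κ hκc hκ r x b)]
        congr 1
        funext τ
        simp only [map_add, smul_add]
      map_smul' := fun c a => by
        rw [RingHom.id_apply, ← integral_smul]
        congr 1
        funext τ
        simp only [map_smul]
        rw [smul_comm] }
  have hC : 0 ≤ (∫ τ : ℝ, ‖κ τ‖) * ‖x‖ :=
    mul_nonneg (integral_nonneg fun _ => norm_nonneg _) (norm_nonneg _)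
  have hb : ∀ ζ, ‖L ζ‖ ≤ ((∫ τ : ℝ, ‖κ τ‖) * ‖x‖) * ‖ζ‖ := by
    intro ζ
    have h1 : ‖∫ τ : ℝ, κ τ • D.wave (r * τ) (x (D.wave (-(r * τ)) ζ))‖
        ≤ ∫ τ : ℝ, ‖κ τ‖ * (‖x‖ * ‖ζ‖) :=
      norm_integral_le_of_norm_le (hκ.norm.mul_const _)
        (Eventually.of_forall fun τ => norm_flow_le D κ r x ζ τ)
    rw [integral_mul_const] at h1
    calc ‖L ζ‖ ≤ (∫ τ : ℝ, ‖κ τ‖) * (‖x‖ * ‖ζ‖) := h1
      _ = ((∫ τ : ℝ, ‖κ τ‖) * ‖x‖) * ‖ζ‖ := by ring
  refine ⟨L.mkContinuous _ hb, fun ζ => rfl, L.mkContinuous_norm_le hC hb⟩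

namespace SmoothC1

theorem character_apply (t u : ℝ) :
    LineCalculus.character t u = Complex.exp (Complex.I * ((t * u : ℝ) : ℂ)) := rfl

theorem norm_character_sub_le (t t' u : ℝ) :
    ‖LineCalculus.character t u - LineCalculus.character t' u‖ ≤ |t - t'| * |u| := by
  rw [character_apply, character_apply]
  have h1 : Complex.exp (Complex.I * ((t * u : ℝ) : ℂ)) - Complex.exp (Complex.I * ((t' * u : ℝ) : ℂ))
      = Complex.exp (Complex.I * ((t' * u : ℝ) : ℂ)) *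
        (Complex.exp (Complex.I * (((t - t') * u : ℝ) : ℂ)) - 1) := by
    rw [mul_sub, ← Complex.exp_add, mul_one]
    congr 2
    push_cast
    ring
  rw [h1, norm_mul]
  have h2 : ‖Complex.exp (Complex.I * ((t' * u : ℝ) : ℂ))‖ = 1 := by
    rw [mul_comm]; exact Complex.norm_exp_ofReal_mul_I _
  rw [h2, one_mul]
  refine (Real.norm_exp_I_mul_ofReal_sub_one_le).trans ?_
  rw [Real.norm_eq_abs, abs_mul]

theorem continuous_character_mul (g : Cb) (hg : HasCompactSupport (g : ℝ → ℂ)) :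
    Continuous fun t : ℝ => LineCalculus.character t * g := by
  obtain ⟨R, hR⟩ : ∃ R : ℝ, ∀ u ∈ tsupport (g : ℝ → ℂ), ‖u‖ ≤ R :=
    hg.isCompact.isBounded.exists_norm_le
  have hK : 0 ≤ max R 0 * ‖g‖ := mul_nonneg (le_max_right _ _) (norm_nonneg _)
  refine LipschitzWith.continuous (K := Real.toNNReal (max R 0 * ‖g‖))
    (LipschitzWith.of_dist_le_mul fun t t' => ?_)
  rw [Real.coe_toNNReal _ hK]
  rw [BoundedContinuousFunction.dist_le (mul_nonneg hK dist_nonneg)]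
  intro u
  rw [BoundedContinuousFunction.mul_apply, BoundedContinuousFunction.mul_apply, dist_eq_norm,
    ← sub_mul, norm_mul, Real.dist_eq]
  by_cases hu : g u = 0
  · rw [hu, norm_zero, mul_zero]
    exact mul_nonneg hK (abs_nonneg _)
  · have hu' : u ∈ tsupport (g : ℝ → ℂ) := subset_tsupport _ hu
    have h1 : |u| ≤ max R 0 := (hR u hu').trans (le_max_left _ _)
    calc ‖LineCalculus.character t u - LineCalculus.character t' u‖ * ‖g u‖
        ≤ (|t - t'| * |u|) * ‖g‖ :=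
          mul_le_mul (norm_character_sub_le t t' u) (g.norm_coe_le_norm u) (norm_nonneg _)
            (mul_nonneg (abs_nonneg _) (abs_nonneg _))
      _ ≤ (|t - t'| * max R 0) * ‖g‖ := by
          refine mul_le_mul_of_nonneg_right ?_ (norm_nonneg _)
          exact mul_le_mul_of_nonneg_left h1 (abs_nonneg _)
      _ = max R 0 * ‖g‖ * |t - t'| := by ring

/-- `F ↦ F(D) z` as a continuous linear map. -/
noncomputable def applyCLM (D : LineCalculus H) (z : H) : Cb →L[ℂ] H :=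
  LinearMap.mkContinuous
    { toFun := fun F => D.apply F z
      map_add' := fun a b => by rw [map_add]; rfl
      map_smul' := fun c a => by rw [map_smul]; rfl } ‖z‖
    (fun F => by
      have := norm_apply_apply_le D F z
      rw [mul_comm]
      exact this)

theorem applyCLM_apply (D : LineCalculus H) (z : H) (F : Cb) : applyCLM D z F = D.apply F z := rfl

theorem norm_character (t : ℝ) : ‖LineCalculus.character t‖ ≤ 1 := by
  rw [BoundedContinuousFunction.norm_le zero_le_one]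
  intro u
  rw [character_apply, mul_comm, Complex.norm_exp_ofReal_mul_I]

theorem integrable_cb (κ : ℝ → ℂ) (hκc : Continuous κ) (hκ : Integrable κ) (r : ℝ) (g : Cb)
    (hg : HasCompactSupport (g : ℝ → ℂ)) :
    Integrable fun τ : ℝ => κ τ • (LineCalculus.character (r * τ) * g) := by
  have hc : Continuous fun τ : ℝ => κ τ • (LineCalculus.character (r * τ) * g) :=
    hκc.smul ((continuous_character_mul g hg).comp (continuous_const.mul continuous_id))
  refine Integrable.mono' (g := fun τ => ‖κ τ‖ * ‖g‖) (hκ.norm.mul_const _)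
    hc.aestronglyMeasurable (Eventually.of_forall fun τ => ?_)
  rw [norm_smul]
  refine mul_le_mul_of_nonneg_left ?_ (norm_nonneg _)
  calc ‖LineCalculus.character (r * τ) * g‖ ≤ ‖LineCalculus.character (r * τ)‖ * ‖g‖ := norm_mul_le _ _
    _ ≤ 1 * ‖g‖ := mul_le_mul_of_nonneg_right (norm_character _) (norm_nonneg _)
    _ = ‖g‖ := one_mul _

theorem integral_cb (κ : ℝ → ℂ) (hκc : Continuous κ) (hκ : Integrable κ) (r : ℝ) (ψ g : Cb)
    (hg : HasCompactSupport (g : ℝ → ℂ))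
    (hψ : ∀ u : ℝ, ∫ τ : ℝ, κ τ * Complex.exp (Complex.I * ((r * τ * u : ℝ) : ℂ)) = ψ u) :
    ∫ τ : ℝ, κ τ • (LineCalculus.character (r * τ) * g) = ψ * g := by
  ext u
  have h := (BoundedContinuousFunction.evalCLM ℂ u).integral_comp_comm
    (integrable_cb κ hκc hκ r g hg)
  rw [BoundedContinuousFunction.evalCLM_apply] at h
  rw [← h, BoundedContinuousFunction.mul_apply, ← hψ u, ← integral_mul_const]
  congr 1
  funext τ
  rw [BoundedContinuousFunction.evalCLM_apply, BoundedContinuousFunction.smul_apply,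
    BoundedContinuousFunction.mul_apply, character_apply, smul_eq_mul]
  ring

theorem integrable_wave (D : LineCalculus H) (κ : ℝ → ℂ) (hκc : Continuous κ) (hκ : Integrable κ)
    (r : ℝ) (ζ : H) : Integrable fun τ : ℝ => κ τ • D.wave (r * τ) ζ := by
  have hc : Continuous fun τ : ℝ => κ τ • D.wave (r * τ) ζ :=
    hκc.smul ((continuous_wave D ζ).comp (continuous_const.mul continuous_id))
  refine Integrable.mono' (g := fun τ => ‖κ τ‖ * ‖ζ‖) (hκ.norm.mul_const _)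
    hc.aestronglyMeasurable (Eventually.of_forall fun τ => ?_)
  rw [norm_smul, norm_wave_apply]

theorem norm_integral_wave_le (D : LineCalculus H) (κ : ℝ → ℂ) (hκ : Integrable κ)
    (r : ℝ) (ζ : H) : ‖∫ τ : ℝ, κ τ • D.wave (r * τ) ζ‖ ≤ (∫ τ : ℝ, ‖κ τ‖) * ‖ζ‖ := by
  rw [← integral_mul_const]
  refine norm_integral_le_of_norm_le (hκ.norm.mul_const _) (Eventually.of_forall fun τ => ?_)
  rw [norm_smul, norm_wave_apply]

/-- the claim on the dense set of vectors `g(D) z`. -/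
theorem integral_wave_eq_apply_of_compact (D : LineCalculus H) (κ : ℝ → ℂ) (hκc : Continuous κ)
    (hκ : Integrable κ) (r : ℝ) (ψ g : Cb) (hg : HasCompactSupport (g : ℝ → ℂ))
    (hψ : ∀ u : ℝ, ∫ τ : ℝ, κ τ * Complex.exp (Complex.I * ((r * τ * u : ℝ) : ℂ)) = ψ u) (z : H) :
    ∫ τ : ℝ, κ τ • D.wave (r * τ) (D.apply g z) = D.apply ψ (D.apply g z) := by
  have h := (applyCLM D z).integral_comp_comm (integrable_cb κ hκc hκ r g hg)
  rw [integral_cb κ hκc hκ r ψ g hg hψ, applyCLM_apply, apply_mul_apply] at h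
  rw [← h]
  congr 1
  funext τ
  rw [applyCLM_apply, map_smul, _root_.smul_apply, apply_mul_apply]
  rfl

end SmoothC1

/-- `∫ κ(τ) U_{rτ} ζ dτ = ψ(D) ζ` when `ψ(u) = ∫ κ(τ) e^{i r τ u} dτ`. -/
theorem integral_wave_eq_apply' (D : LineCalculus H) (κ : ℝ → ℂ) (hκc : Continuous κ)
    (hκ : Integrable κ) (r : ℝ) (ψ : Cb)
    (hψ : ∀ u : ℝ, ∫ τ : ℝ, κ τ * Complex.exp (Complex.I * ((r * τ * u : ℝ) : ℂ)) = ψ u) (ζ : H) :
    ∫ τ : ℝ, κ τ • D.wave (r * τ) ζ = D.apply ψ ζ := by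
  rw [← sub_eq_zero, ← norm_le_zero_iff]
  set A : ℝ := (∫ τ : ℝ, ‖κ τ‖) + ‖ψ‖ with hA
  have hA0 : 0 ≤ A := add_nonneg (integral_nonneg fun _ => norm_nonneg _) (norm_nonneg _)
  refine le_of_forall_pos_le_add fun ε hε => ?_
  rw [zero_add]
  obtain ⟨g, hg, hgε⟩ := D.window ζ (ε / (A + 1)) (by positivity)
  set w : H := D.apply g ζ with hw
  have key := integral_wave_eq_apply_of_compact D κ hκc hκ r ψ g hg hψ ζ
  have h1 : (∫ τ : ℝ, κ τ • D.wave (r * τ) ζ) - D.apply ψ ζ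
      = (∫ τ : ℝ, κ τ • D.wave (r * τ) (ζ - w)) - D.apply ψ (ζ - w) := by
    have h2 : (∫ τ : ℝ, κ τ • D.wave (r * τ) (ζ - w))
        = (∫ τ : ℝ, κ τ • D.wave (r * τ) ζ) - ∫ τ : ℝ, κ τ • D.wave (r * τ) w := by
      rw [← integral_sub (integrable_wave D κ hκc hκ r ζ) (integrable_wave D κ hκc hκ r w)]
      congr 1
      funext τ
      rw [map_sub, smul_sub]
    rw [h2, map_sub, key]
    abel
  rw [h1]
  have h3 : ‖ζ - w‖ < ε / (A + 1) := by rw [norm_sub_rev]; exact hgε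
  calc ‖(∫ τ : ℝ, κ τ • D.wave (r * τ) (ζ - w)) - D.apply ψ (ζ - w)‖
      ≤ ‖∫ τ : ℝ, κ τ • D.wave (r * τ) (ζ - w)‖ + ‖D.apply ψ (ζ - w)‖ := norm_sub_le _ _
    _ ≤ (∫ τ : ℝ, ‖κ τ‖) * ‖ζ - w‖ + ‖ψ‖ * ‖ζ - w‖ :=
        add_le_add (norm_integral_wave_le D κ hκ r _) (norm_apply_apply_le D ψ _)
    _ = A * ‖ζ - w‖ := by rw [hA]; ring
    _ ≤ A * (ε / (A + 1)) := mul_le_mul_of_nonneg_left h3.le hA0
    _ ≤ ε := by
        rw [mul_div_assoc', div_le_iff₀ (by positivity)]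
        nlinarith

end Crest.Agent.S0112Aux
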