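import Crest.Agent.S0112Aux.Calc
import Crest.Agent.S0112Aux.Fourier
import Crest.Agent.S0112Aux.SmoothC1

/-! # S0112 / WP-C : smoothing `x ↦ σ_κ(x) = ∫ κ(τ) U_{rτ} x U_{-rτ} dτ` (strong integral) -/

set_option autoImplicit false

namespace Crest.Agent.S0112Aux

open Crest.OpAlg Filter MeasureTheory
open scoped Topology

variable {H : Type*} [NormedAddCommGroup H] [InnerProductSpace ℂ H] [CompleteSpace H]

local notation "Cb" => BoundedContinuousFunction ℝ ℂ

/-- The strong integral defines a bounded operator.  The integrand is continuous in `τ`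
(`continuous_flow_apply`) and bounded by `‖κ τ‖ * ‖x‖ * ‖ζ‖`. Use `LinearMap.mkContinuous`. -/
theorem exists_smooth (D : LineCalculus H) (κ : ℝ → ℂ) (hκc : Continuous κ) (hκ : Integrable κ)
    (r : ℝ) (x : H →L[ℂ] H) :
    ∃ y : H →L[ℂ] H,
      (∀ ζ : H, y ζ = ∫ τ : ℝ, κ τ • D.wave (r * τ) (x (D.wave (-(r * τ)) ζ))) ∧
      ‖y‖ ≤ (∫ τ : ℝ, ‖κ τ‖) * ‖x‖ :=
  exists_smooth' D κ hκc hκ r x

/-- `∫ κ(τ) U_{rτ} ζ dτ = ψ(D) ζ` when `ψ(u) = ∫ κ(τ) e^{i r τ u} dτ`.
Proof: for `ζ = g(D) z`, `g` of compact support, `τ ↦ κ τ • (character (r τ) * g)` is a continuous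
integrable `C_b`-valued map whose Bochner integral is `ψ * g` (evaluate pointwise with
`ContinuousLinearMap.integral_comp_comm` for the evaluation functional) ; push the integral through the
continuous linear map `F ↦ D.apply F z`.  Then density (`D.window`) : both sides are bounded
operators of `ζ` (norms `≤ ∫‖κ‖`, `≤ ‖ψ‖`). -/
theorem integral_wave_eq_apply (D : LineCalculus H) (κ : ℝ → ℂ) (hκc : Continuous κ)
    (hκ : Integrable κ) (r : ℝ) (ψ : Cb)
    (hψ : ∀ u : ℝ, ∫ τ : ℝ, κ τ * Complex.exp (Complex.I * ((r * τ * u : ℝ) : ℂ)) = ψ u) (ζ : H) :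
    ∫ τ : ℝ, κ τ • D.wave (r * τ) ζ = D.apply ψ ζ :=
  integral_wave_eq_apply' D κ hκc hκ r ψ hψ ζ

-- `exists_band_filter` (WP-C2) now lives, fully proved, in `S0112Aux/SmoothC2.lean`.

end Crest.Agent.S0112Aux
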