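import Crest.Agent.S0112Aux.Calc

/-! # S0112 / WP-D : the vacuum vector, the commutant, and graph-norm approximation
(statements by helper1, proofs by helper21) -/

set_option autoImplicit false

namespace Crest.Agent.S0112Aux

open Crest.OpAlg Filter MeasureTheory
open scoped Topology

variable {H : Type*} [NormedAddCommGroup H] [InnerProductSpace ℂ H] [CompleteSpace H]

local notation "Cb" => BoundedContinuousFunction ℝ ℂ

theorem vac_inner_apply_left (D : LineCalculus H) (f : Cb) (x y : H) :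
    inner ℂ (D.apply f x) y = inner ℂ x (D.apply (star f) y) := by
  rw [map_star, ContinuousLinearMap.star_eq_adjoint, ContinuousLinearMap.adjoint_inner_right]

theorem vac_inner_J_J (S : ModularDatum H) (x y : H) :
    inner ℂ (S.J x) (S.J y) = inner ℂ y x := by
  have h1 : ∀ z : H, ‖S.J z‖ = ‖z‖ := fun z => S.J.norm_map z
  have e1 : S.J x + S.J y = S.J (x + y) := (map_add S.J x y).symm
  have e2 : S.J x - S.J y = S.J (x - y) := (map_sub S.J x y).symm
  have e3 : S.J x - Complex.I • S.J y = S.J (x + Complex.I • y) := by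
    rw [map_add, map_smulₛₗ]; simp [sub_eq_add_neg]
  have e4 : S.J x + Complex.I • S.J y = S.J (x - Complex.I • y) := by
    rw [map_sub, map_smulₛₗ]; simp [sub_eq_add_neg]
  rw [inner_eq_sum_norm_sq_div_four (𝕜 := ℂ) (S.J x) (S.J y), ← inner_conj_symm y x,
    inner_eq_sum_norm_sq_div_four (𝕜 := ℂ) x y]
  simp only [RCLike.I_to_complex]
  rw [e1, e2, e3, e4, h1, h1, h1, h1]
  simp only [map_div₀, map_add, map_sub, map_mul, map_pow, RCLike.conj_ofReal, Complex.conj_I]
  have : (starRingEnd ℂ) (4 : ℂ) = 4 := by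
    simpa using Complex.conj_ofReal 4
  rw [this]
  ring

/-- product of a compactly supported bounded continuous function with a continuous function -/
theorem vac_exists_mul (f : Cb) (hf : HasCompactSupport (f : ℝ → ℂ)) (φ : ℝ → ℂ)
    (hφ : Continuous φ) :
    ∃ g : Cb, (∀ u, g u = f u * φ u) ∧ HasCompactSupport (g : ℝ → ℂ) := by
  have hc : Continuous fun u => f u * φ u := f.continuous.mul hφ
  have hs : HasCompactSupport fun u => f u * φ u := hf.mul_right
  obtain ⟨C, hC⟩ := hc.bounded_above_of_compact_support hs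
  refine ⟨BoundedContinuousFunction.ofNormedAddCommGroup _ hc C hC, fun u => rfl, hs⟩


theorem vac_halfExp_mem (S : ModularDatum H) {a : H →L[ℂ] H} (ha : a ∈ S.M) :
    S.D.HalfExp (a S.vac) (S.J (star a S.vac)) := by
  have h : ((a S.vac, star a S.vac) : H × H) ∈ closure (Set.range fun a : S.M =>
      ((a : H →L[ℂ] H) S.vac, star (a : H →L[ℂ] H) S.vac)) :=
    subset_closure ⟨⟨a, ha⟩, rfl⟩
  rw [S.tomita] at h
  exact h

theorem vac_mem_closure (S : ModularDatum H) {x Y : H} (h : S.D.HalfExp x Y) :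
    ((x, S.J Y) : H × H) ∈ closure (Set.range fun a : S.M =>
      ((a : H →L[ℂ] H) S.vac, star (a : H →L[ℂ] H) S.vac)) := by
  rw [S.tomita]
  show S.D.HalfExp x (S.J (S.J Y))
  rw [S.J_J]; exact h

theorem vac_graph_inner (S : ModularDatum H) {x Y : H} (h : S.D.HalfExp x Y) :
    inner ℂ (S.J Y) S.vac = inner ℂ S.vac x := by
  have hmem := vac_mem_closure S h
  have hclosed : IsClosed {p : H × H | inner ℂ p.2 S.vac = inner ℂ S.vac p.1} :=
    isClosed_eq (by fun_prop) (by fun_prop)
  have hsub : Set.range (fun a : S.M =>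
      ((a : H →L[ℂ] H) S.vac, star (a : H →L[ℂ] H) S.vac)) ⊆
      {p : H × H | inner ℂ p.2 S.vac = inner ℂ S.vac p.1} := by
    rintro _ ⟨a, rfl⟩
    simp [ContinuousLinearMap.star_eq_adjoint, ContinuousLinearMap.adjoint_inner_left]
  exact closure_minimal hsub hclosed hmem

theorem vac_halfExp_apply (D : LineCalculus H) (χ χ' : Cb)
    (h : ∀ u, χ' u = χ u * ((Real.exp (u / 2) : ℝ) : ℂ)) (x₀ : H) :
    D.HalfExp (D.apply χ x₀) (D.apply χ' x₀) := by
  intro f g hfg
  rw [← apply_mul_apply, ← apply_mul_apply]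
  congr 2
  ext u
  simp only [BoundedContinuousFunction.mul_apply, h, hfg]
  ring

theorem vac_key (S : ModularDatum H) (f : Cb) (hf : HasCompactSupport (f : ℝ → ℂ)) (g : Cb)
    (hg : ∀ u, g u = f u * (1 - ((Real.exp u : ℝ) : ℂ))) : S.D.apply g S.vac = 0 := by
  obtain ⟨f1, hf1, -⟩ := vac_exists_mul f hf (fun u => ((Real.exp (u / 2) : ℝ) : ℂ))
    (by fun_prop)
  obtain ⟨f2, hf2, -⟩ := vac_exists_mul f hf (fun u => ((Real.exp u : ℝ) : ℂ)) (by fun_prop)
  have h1 : S.D.apply f1 (S.J S.vac) = S.D.apply f S.vac := by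
    apply ext_inner_right ℂ
    intro z
    rw [vac_inner_apply_left, vac_inner_apply_left]
    have hH : S.D.HalfExp (S.D.apply (star f) z) (S.D.apply (star f1) z) := by
      apply vac_halfExp_apply
      intro u
      simp only [BoundedContinuousFunction.star_apply, hf1, star_mul', Complex.star_def,
        Complex.conj_ofReal]
    have := vac_graph_inner S hH
    rw [← this]
    conv_rhs => rw [← S.J_J S.vac]
    rw [vac_inner_J_J]
  have h2 : S.D.apply f1 (S.J S.vac) = S.D.apply f2 S.vac := by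
    have h := vac_halfExp_mem S (S.M.one_mem)
    simp only [star_one, one_apply_eq_self] at h
    apply h
    intro u
    rw [hf2, hf1, mul_assoc, ← Complex.ofReal_mul, ← Real.exp_add]
    congr 3
    ring
  have h3 : g = f - f2 := by
    ext u
    simp only [BoundedContinuousFunction.sub_apply, hg, hf2]
    ring
  rw [h3, map_sub, sub_apply, ← h1, h2, sub_self]


theorem vac_abs_le (R u : ℝ) (hu : |u| ≤ R) : |u| ≤ Real.exp R * |1 - Real.exp u| := by
  rcases le_total 0 u with h | h
  · have h1 : u + 1 ≤ Real.exp u := Real.add_one_le_exp u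
    have h2 : |1 - Real.exp u| = Real.exp u - 1 := by
      rw [abs_sub_comm, abs_of_nonneg (by linarith)]
    have h3 : 1 ≤ Real.exp R := Real.one_le_exp ((abs_nonneg u).trans hu)
    rw [h2, abs_of_nonneg h]
    nlinarith
  · have h1 : -u + 1 ≤ Real.exp (-u) := Real.add_one_le_exp (-u)
    have h0 : Real.exp u ≤ 1 := Real.exp_le_one_iff.mpr h
    have h2 : |1 - Real.exp u| = 1 - Real.exp u := abs_of_nonneg (by linarith)
    have h4 : Real.exp (-u) ≤ Real.exp R := by
      apply Real.exp_le_exp.mpr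
      rw [abs_of_nonpos h] at hu; exact hu
    have h5 : Real.exp (-u) * Real.exp u = 1 := by rw [← Real.exp_add]; simp
    rw [h2, abs_of_nonpos h]
    have h6 : 0 < Real.exp u := Real.exp_pos u
    have h7 : -u ≤ Real.exp (-u) * (1 - Real.exp u) := by nlinarith
    have h8 : Real.exp (-u) * (1 - Real.exp u) ≤ Real.exp R * (1 - Real.exp u) := by
      apply mul_le_mul_of_nonneg_right h4; linarith
    linarith

/-- `e^{itD} ξ = ξ`. -/
theorem wave_vac (S : ModularDatum H) (t : ℝ) : S.D.wave t S.vac = S.vac := by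
  -- step: (U_t - 1) f(D) ξ = 0 for f of compact support
  have key : ∀ f : Cb, HasCompactSupport (f : ℝ → ℂ) →
      S.D.wave t (S.D.apply f S.vac) = S.D.apply f S.vac := by
    intro f hf
    obtain ⟨g2, hg2, -⟩ := vac_exists_mul f hf (fun u => 1 - ((Real.exp u : ℝ) : ℂ))
      (by fun_prop)
    have h0 := vac_key S f hf g2 hg2
    obtain ⟨R, hR⟩ : ∃ R : ℝ, ∀ u, f u ≠ 0 → |u| ≤ R := by
      obtain ⟨R, hR⟩ := hf.isCompact.isBounded.subset_closedBall 0
      refine ⟨R, fun u hu => ?_⟩
      have : u ∈ tsupport (f : ℝ → ℂ) := subset_tsupport _ hu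
      simpa [Real.norm_eq_abs] using hR this
    have hdom : ∀ u, ‖((LineCalculus.character t - 1) * f) u‖ ≤ (|t| * Real.exp R) * ‖g2 u‖ := by
      intro u
      by_cases hu : f u = 0
      · simp [hu, hg2]
      · have h1 := vac_abs_le R u (hR u hu)
        have h2 : ‖(LineCalculus.character t) u - 1‖ ≤ |t * u| := by
          have := Real.norm_exp_I_mul_ofReal_sub_one_le (x := t * u)
          simpa [LineCalculus.character, Real.norm_eq_abs] using this
        have h3 : ‖(1 : ℂ) - ((Real.exp u : ℝ) : ℂ)‖ = |1 - Real.exp u| := by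
          rw [← Complex.ofReal_one, ← Complex.ofReal_sub, Complex.norm_real, Real.norm_eq_abs]
        simp only [BoundedContinuousFunction.mul_apply, BoundedContinuousFunction.sub_apply,
          BoundedContinuousFunction.coe_one, Pi.one_apply, hg2, norm_mul, h3]
        rw [abs_mul] at h2
        have h4 : 0 ≤ ‖f u‖ := norm_nonneg _
        have h5 : |t| * |u| ≤ |t| * (Real.exp R * |1 - Real.exp u|) :=
          mul_le_mul_of_nonneg_left h1 (abs_nonneg t)
        calc ‖(LineCalculus.character t) u - 1‖ * ‖f u‖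
            ≤ (|t| * (Real.exp R * |1 - Real.exp u|)) * ‖f u‖ :=
              mul_le_mul_of_nonneg_right (h2.trans h5) h4
          _ = |t| * Real.exp R * (‖f u‖ * |1 - Real.exp u|) := by ring
    have h1 := apply_eq_zero_of_dominated S.D _ g2 _ hdom S.vac h0
    rw [apply_mul_apply, map_sub, map_one, sub_apply, one_apply_eq_self, sub_eq_zero] at h1
    exact h1
  -- density
  by_contra hne
  have hpos : 0 < ‖S.D.wave t S.vac - S.vac‖ := norm_pos_iff.mpr (sub_ne_zero.mpr hne)
  obtain ⟨f, hf, hfε⟩ := S.D.window S.vac (‖S.D.wave t S.vac - S.vac‖ / 2) (by linarith)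
  have h1 : S.D.wave t S.vac - S.vac =
      S.D.wave t (S.vac - S.D.apply f S.vac) + (S.D.apply f S.vac - S.vac) := by
    rw [map_sub, key f hf]; abel
  have h2 : ‖S.D.wave t S.vac - S.vac‖ ≤ ‖S.vac - S.D.apply f S.vac‖ + ‖S.D.apply f S.vac - S.vac‖ := by
    conv_lhs => rw [h1]
    refine (norm_add_le _ _).trans ?_
    rw [norm_wave_apply]
  rw [norm_sub_rev S.vac] at h2
  linarith

theorem flow_apply_vac (S : ModularDatum H) (t : ℝ) (a : H →L[ℂ] H) :
    (S.D.wave t * a * S.D.wave (-t)) S.vac = S.D.wave t (a S.vac) := by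
  simp only [mul_apply_eq_comp, wave_vac]

/-- the flow also preserves the commutant -/
theorem commutant_flow_mem (S : ModularDatum H) (t : ℝ) (b : H →L[ℂ] H) (hb : b ∈ S.M.commutant) :
    S.D.wave t * b * S.D.wave (-t) ∈ S.M.commutant := by
  rw [VonNeumannAlgebra.mem_commutant_iff] at hb ⊢
  intro g hg
  have hg' : S.D.wave (-t) * g * S.D.wave t ∈ S.M := by
    have := S.flow_mem (-t) g hg
    rwa [neg_neg] at this
  have h1 := hb _ hg'
  have e1 : S.D.wave t * S.D.wave (-t) = 1 := wave_mul_neg S.D t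
  have e2 : S.D.wave (-t) * S.D.wave t = 1 := wave_neg_mul S.D t
  calc g * (S.D.wave t * b * S.D.wave (-t))
      = (S.D.wave t * S.D.wave (-t)) * g * (S.D.wave t * b * S.D.wave (-t)) := by
        rw [e1, one_mul]
    _ = S.D.wave t * ((S.D.wave (-t) * g * S.D.wave t) * b) * S.D.wave (-t) := by
        simp only [mul_assoc]
    _ = S.D.wave t * (b * (S.D.wave (-t) * g * S.D.wave t)) * S.D.wave (-t) := by rw [h1]
    _ = S.D.wave t * b * S.D.wave (-t) * g * (S.D.wave t * S.D.wave (-t)) := by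
        simp only [mul_assoc]
    _ = S.D.wave t * b * S.D.wave (-t) * g := by rw [e1, mul_one]

theorem dense_commutant_vac (S : ModularDatum H) :
    Dense {ζ : H | ∃ b : H →L[ℂ] H, b ∈ S.M.commutant ∧ ζ = b S.vac} := by
  -- the submodule `M' ξ`
  let K₀ : Submodule ℂ H :=
    { carrier := {ζ : H | ∃ b : H →L[ℂ] H, b ∈ S.M.commutant ∧ ζ = b S.vac}
      add_mem' := by
        rintro _ _ ⟨b, hb, rfl⟩ ⟨c, hc, rfl⟩
        exact ⟨b + c, add_mem hb hc, rfl⟩
      zero_mem' := ⟨0, zero_mem _, rfl⟩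
      smul_mem' := by
        rintro c _ ⟨b, hb, rfl⟩
        exact ⟨c • b, S.M.commutant.toStarSubalgebra.smul_mem hb c, rfl⟩ }
  let K : Submodule ℂ H := K₀.topologicalClosure
  have : CompleteSpace K := K₀.isClosed_topologicalClosure.completeSpace_coe
  have hinv : ∀ y ∈ S.M.commutant, ∀ x ∈ K, y x ∈ K := by
    intro y hy x hx
    have hmaps : Set.MapsTo y (K₀ : Set H) (K₀ : Set H) := by
      rintro _ ⟨b, hb, rfl⟩
      exact ⟨y * b, mul_mem hy hb, rfl⟩
    have := hmaps.closure y.continuous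
    exact this hx
  have hP : K.starProjection ∈ S.M := by
    rw [VonNeumannAlgebra.IsStarProjection.mem_iff isStarProjection_starProjection]
    intro y hy
    rw [Submodule.range_starProjection]
    exact hinv y hy
  have hξ : S.vac ∈ K := K₀.le_topologicalClosure ⟨1, one_mem _, rfl⟩
  have h1 : (1 - K.starProjection) = 0 := by
    apply S.separating _ (sub_mem (one_mem _) hP)
    simp [Submodule.starProjection_eq_self_iff.mpr hξ]
  have hK : K = ⊤ := by
    rw [eq_top_iff]
    intro x _
    rw [← Submodule.starProjection_eq_self_iff]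
    have := congrArg (fun A : H →L[ℂ] H => A x) h1
    simp only [sub_apply, one_apply_eq_self, zero_apply] at this
    exact (sub_eq_zero.mp this).symm
  have : Dense (K₀ : Set H) := by
    rw [← Submodule.dense_iff_topologicalClosure_eq_top] at hK
    exact hK
  exact this

theorem exists_approx (S : ModularDatum H) (s δ : ℝ) (hδ : 0 ≤ δ) (h : H)
    (hband : S.D.SupportedIn (Set.Icc (s - δ) (s + δ)) h) (ε : ℝ) (hε : 0 < ε) :
    ∃ a : H →L[ℂ] H, a ∈ S.M ∧ ‖a S.vac - h‖ < ε ∧
      ‖(star a) S.vac‖ < Real.exp ((s + δ) / 2) * ‖h‖ + ε := by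
  -- the function `g₀ u = exp (min u (s+δ) / 2)`
  let g₀ : Cb := BoundedContinuousFunction.ofNormedAddCommGroup
    (fun u : ℝ => ((Real.exp (min u (s + δ) / 2) : ℝ) : ℂ)) (by fun_prop)
    (Real.exp ((s + δ) / 2)) (fun u => by
      rw [Complex.norm_real, Real.norm_eq_abs, abs_of_pos (Real.exp_pos _)]
      apply Real.exp_le_exp.mpr
      have := min_le_right u (s + δ)
      linarith)
  have hg₀ : ‖g₀‖ ≤ Real.exp ((s + δ) / 2) :=
    BoundedContinuousFunction.norm_ofNormedAddCommGroup_le _ (Real.exp_pos _).le _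
  have hH : S.D.HalfExp h (S.D.apply g₀ h) := by
    intro f g hfg
    rw [← apply_mul_apply]
    apply apply_congr_of_supportedIn S.D _ _ _ _ h hband
    intro u hu
    have : min u (s + δ) = u := min_eq_left hu.2
    simp only [BoundedContinuousFunction.mul_apply, hfg]
    show f u * ((Real.exp (min u (s + δ) / 2) : ℝ) : ℂ) = _
    rw [this]
  have hmem := vac_mem_closure S hH
  rw [Metric.mem_closure_iff] at hmem
  obtain ⟨_, ⟨a, rfl⟩, ha⟩ := hmem ε hε
  rw [Prod.dist_eq, max_lt_iff] at ha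
  refine ⟨a, a.2, ?_, ?_⟩
  · rw [← dist_eq_norm, dist_comm]; exact ha.1
  · have h2 : dist (S.J (S.D.apply g₀ h)) (star (a : H →L[ℂ] H) S.vac) < ε := ha.2
    have h3 : ‖S.J (S.D.apply g₀ h)‖ ≤ Real.exp ((s + δ) / 2) * ‖h‖ := by
      rw [S.J.norm_map]
      exact (norm_apply_apply_le S.D g₀ h).trans (by gcongr)
    have h4 : ‖star (a : H →L[ℂ] H) S.vac‖ ≤ ‖S.J (S.D.apply g₀ h)‖ +
        dist (S.J (S.D.apply g₀ h)) (star (a : H →L[ℂ] H) S.vac) := by
      rw [dist_eq_norm]
      have := norm_sub_norm_le (star (a : H →L[ℂ] H) S.vac) (S.J (S.D.apply g₀ h))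
      rw [norm_sub_rev] at this
      linarith
    linarith

end Crest.Agent.S0112Aux
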